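import Vale.Agent.P207.H799.Mom

/-!
# P207, all dimensions: the end of the smooth case

From the exact equation `x' = (1/2) P (x, x) α` along the affine lines of the stable leaves to
the flat conformal charts: nondegeneracy, canonical conformal structure, Möbius transition maps.
-/

open Set Filter Topology Metric MeasureTheory Module
open scoped ContDiff RealInnerProductSpace

noncomputable section

namespace Vale.Agent.P207.H799

section Nondeg

variable {E : Type*} [NormedAddCommGroup E] [NormedSpace ℝ E] {B : Type*} [TopologicalSpace B]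
  [CompactSpace B]

theorem quad_lip (Q : E →L[ℝ] E →L[ℝ] E) {R : ℝ} (hR : 0 ≤ R) :
    LipschitzOnWith ⟨2 * ‖Q‖ * R, by positivity⟩ (fun x => Q x x) (closedBall 0 R) := by
  refine LipschitzOnWith.of_dist_le_mul fun x hx y hy => ?_
  rw [dist_eq_norm, dist_eq_norm]
  have hx' := mem_closedBall_zero_iff.1 hx
  have hy' := mem_closedBall_zero_iff.1 hy
  have e : Q x x - Q y y = Q x (x - y) + Q (x - y) y := by
    simp only [map_sub, sub_apply]; abel
  rw [e]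
  have h1 : ‖Q x (x - y)‖ ≤ ‖Q‖ * R * ‖x - y‖ :=
    (Q.le_opNorm₂ x (x - y)).trans (by gcongr)
  have h2 : ‖Q (x - y) y‖ ≤ ‖Q‖ * R * ‖x - y‖ := by
    refine (Q.le_opNorm₂ (x - y) y).trans ?_
    calc ‖Q‖ * ‖x - y‖ * ‖y‖ ≤ ‖Q‖ * ‖x - y‖ * R := by gcongr
      _ = _ := by ring
  calc ‖Q x (x - y) + Q (x - y) y‖ ≤ ‖Q‖ * R * ‖x - y‖ + ‖Q‖ * R * ‖x - y‖ :=
        (norm_add_le _ _).trans (add_le_add h1 h2)
    _ = 2 * ‖Q‖ * R * ‖x - y‖ := by ring

/-- a zero of a quadratic field is a stationary point -/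
theorem const_of_quad {Q : E →L[ℝ] E →L[ℝ] E} {T : ℝ} {x : ℝ → E}
    (hx : ∀ t ∈ Ico (0 : ℝ) T, HasDerivAt x (Q (x t) (x t)) t) (h0 : Q (x 0) (x 0) = 0) :
    ∀ t ∈ Ico (0 : ℝ) T, x t = x 0 := by
  intro t ht
  have hsub : Icc (0 : ℝ) t ⊆ Ico 0 T := fun s hs => ⟨hs.1, hs.2.trans_lt ht.2⟩
  have hcont : ContinuousOn x (Icc 0 t) :=
    fun s hs => (hx s (hsub hs)).continuousAt.continuousWithinAt
  obtain ⟨R, hR⟩ := (isCompact_Icc.image_of_continuousOn hcont).isBounded.subset_closedBall 0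
  have hmem : ∀ s ∈ Icc (0 : ℝ) t, x s ∈ closedBall (0 : E) R :=
    fun s hs => hR (mem_image_of_mem x hs)
  have h00 : (0 : ℝ) ∈ Icc (0 : ℝ) t := left_mem_Icc.2 ht.1
  have hR0 : 0 ≤ R := (norm_nonneg _).trans (mem_closedBall_zero_iff.1 (hmem 0 h00))
  have := ODE_solution_unique_of_mem_Icc_right (v := fun _ x => Q x x)
    (s := fun _ => closedBall (0 : E) R) (K := ⟨2 * ‖Q‖ * R, by positivity⟩)
    (f := x) (g := fun _ => x 0) (a := 0) (b := t)
    (fun _ _ => quad_lip Q hR0)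
    hcont
    (fun s hs => (hx s (hsub ⟨hs.1, hs.2.le⟩)).hasDerivWithinAt)
    (fun s hs => hmem s ⟨hs.1, hs.2.le⟩)
    continuousOn_const
    (fun s _ => by simpa only [h0] using (hasDerivAt_const s (x 0)).hasDerivWithinAt)
    (fun _ _ => hmem 0 h00) rfl
  exact this (right_mem_Icc.2 ht.1)

omit [NormedSpace ℝ E] [CompactSpace B] in
/-- a cluster point of a sequence along which a continuous chart blows up is the pole -/
theorem cluster_pole [T1Space B] {ξ : B} {a : B → E} (hc : ContinuousOn a {ξ}ᶜ) {η : ℕ → B}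
    (h : Tendsto (fun n => ‖a (η n)‖) atTop atTop) {z : B} (hz : MapClusterPt z atTop η) :
    z = ξ := by
  by_contra hne
  have hopen : IsOpen ({ξ}ᶜ : Set B) := isOpen_compl_singleton
  have hcz : ContinuousAt (fun η => ‖a η‖) z :=
    (hc.continuousAt (hopen.mem_nhds hne)).norm
  have h1 : ∀ᶠ η in 𝓝 z, ‖a η‖ < ‖a z‖ + 1 := hcz.eventually (gt_mem_nhds (by linarith))
  have h2 : ∃ᶠ n in atTop, ‖a (η n)‖ < ‖a z‖ + 1 :=
    (mapClusterPt_iff_frequently.1 hz) _ h1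
  have h3 : ∀ᶠ n in atTop, ‖a z‖ + 1 ≤ ‖a (η n)‖ := h.eventually_ge_atTop _
  obtain ⟨n, hn1, hn2⟩ := (h2.and_eventually h3).exists
  linarith

/-- (d) nondegeneracy of the quadratic field -/
theorem nondeg [T1Space B] {ξ : ℝ → B} (hinj : Function.Injective ξ) {a : ℝ → B → E}
    (hc : ∀ t, ContinuousOn (a t) {ξ t}ᶜ) (hsurj : ∀ x, ∃ η, η ≠ ξ 0 ∧ a 0 η = x)
    {Q : E →L[ℝ] E →L[ℝ] E}
    (ode : ∀ t η, η ≠ ξ t → HasDerivAt (fun τ => a τ η) (Q (a t η) (a t η)) t)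
    (blow : ∀ t, Tendsto (fun τ => ‖a τ (ξ t)‖) (𝓝[<] t) atTop) {u : E} (hu : u ≠ 0) :
    Q u u ≠ 0 := by
  intro h
  -- the whole line is stationary
  have key : ∀ (s : ℝ) (η : B), η ≠ ξ 0 → a 0 η = s • u → a 1 η = s • u := by
    intro s η hη h0
    have hQ : Q (a 0 η) (a 0 η) = 0 := by rw [h0]; simp [h]
    have hne : ∀ t ∈ Ico (0 : ℝ) 2, η ≠ ξ t := by
      intro t ht heq
      have ht0 : 0 < t := lt_of_le_of_ne ht.1 (by rintro rfl; exact hη heq)
      have hst : ∀ τ ∈ Ico (0 : ℝ) t, a τ η = a 0 η := by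
        refine const_of_quad (fun τ hτ => ode τ η ?_) hQ
        intro h'
        exact hτ.2.ne (hinj (h'.symm.trans heq))
      have hb := blow t
      rw [← heq] at hb
      have h1 : ∀ᶠ τ in 𝓝[<] t, ‖a 0 η‖ + 1 ≤ ‖a τ η‖ := hb.eventually_ge_atTop _
      have h2 : ∀ᶠ τ in 𝓝[<] t, τ ∈ Ico (0 : ℝ) t := by
        filter_upwards [Ioo_mem_nhdsLT ht0] with τ hτ using ⟨hτ.1.le, hτ.2⟩
      obtain ⟨τ, hτ1, hτ2⟩ := (h1.and h2).exists
      rw [hst τ hτ2] at hτ1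
      linarith
    have := const_of_quad (T := 2) (x := fun τ => a τ η) (fun t ht => ode t η (hne t ht)) hQ 1
      ⟨zero_le_one, one_lt_two⟩
    exact this.trans h0
  choose η hη1 hη2 using fun n : ℕ => hsurj ((n : ℝ) • u)
  obtain ⟨z, hz⟩ : ∃ z, MapClusterPt z atTop η := exists_clusterPt_of_compactSpace _
  have hn : Tendsto (fun n : ℕ => ‖(n : ℝ) • u‖) atTop atTop := by
    simp only [norm_smul, Real.norm_natCast]
    exact tendsto_natCast_atTop_atTop.atTop_mul_const (norm_pos_iff.2 hu)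
  have e0 : z = ξ 0 := cluster_pole (hc 0) (by simpa only [hη2] using hn) hz
  have e1 : z = ξ 1 := by
    refine cluster_pole (hc 1) ?_ hz
    have : (fun n => ‖a 1 (η n)‖) = fun n : ℕ => ‖(n : ℝ) • u‖ := by
      funext n; rw [key n (η n) (hη1 n) (hη2 n)]
    rw [this]; exact hn
  exact zero_ne_one (hinj (e0.symm.trans e1))

end Nondeg

section Sim

variable {E : Type*} [NormedAddCommGroup E] [InnerProductSpace ℝ E] [FiniteDimensional ℝ E]

theorem exists_iso_of_norm {D : E →L[ℝ] E} {r : ℝ} (hr : 0 < r) (h : ∀ u, ‖D u‖ = r * ‖u‖) :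
    ∃ O : E ≃ₗᵢ[ℝ] E, D = r • (O.toContinuousLinearEquiv : E →L[ℝ] E) := by
  let L : E →ₗᵢ[ℝ] E :=
    { toLinearMap := (r⁻¹ • D : E →L[ℝ] E)
      norm_map' := fun u => by
        change ‖r⁻¹ • D u‖ = ‖u‖
        rw [norm_smul, h, Real.norm_of_nonneg (inv_nonneg.2 hr.le), ← mul_assoc,
          inv_mul_cancel₀ hr.ne', one_mul] }
  refine ⟨L.toLinearIsometryEquiv rfl, ?_⟩
  ext u
  change D u = r • (r⁻¹ • D u)
  rw [smul_smul, mul_inv_cancel₀ hr.ne', one_smul]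

theorem abs_det_of_norm {D : E →L[ℝ] E} {r : ℝ} (hr : 0 < r) (h : ∀ u, ‖D u‖ = r * ‖u‖) :
    |D.det| = r ^ finrank ℝ E := by
  obtain ⟨A, hA⟩ := exists_iso_of_norm hr h
  rw [hA, ContinuousLinearMap.det]
  have e : ((r • (A.toContinuousLinearEquiv : E →L[ℝ] E) : E →L[ℝ] E) : E →ₗ[ℝ] E)
      = r • (A.toLinearEquiv : E →ₗ[ℝ] E) := rfl
  rw [e, LinearMap.det_smul, abs_mul, abs_det_isometry, mul_one, abs_pow, abs_of_pos hr]

end Sim

section CD

variable {m : ℕ} {X B : Type*}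

/-- the line through `v` in the direction `α` of the stable leaf -/
structure Curve (em : X → B) (a : X → B → Eu m)
    (P : X → Eu m →L[ℝ] Eu m →L[ℝ] (Eu m →L[ℝ] Eu m)) (v : X) (α : Eu m) (y : ℝ → X) :
    Prop where
  zero : y 0 = v
  P_eq : ∀ t, P (y t) = P v
  inj : α ≠ 0 → Function.Injective fun t => em (y t)
  ode : ∀ t η, η ≠ em (y t) →
    HasDerivAt (fun τ => a (y τ) η) ((1 / 2 : ℝ) • P v (a (y t) η) (a (y t) η) α) t
  blow : α ≠ 0 → ∀ t, Tendsto (fun τ => ‖a (y τ) (em (y t))‖) (𝓝[<] t) atTop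
  lin : ∀ x ∈ ball (0 : Eu m) 1, ∃ A : ℝ → Eu m →L[ℝ] Eu m,
    A 0 = ContinuousLinearMap.id ℝ (Eu m) ∧ HasDerivAt A ((P v x).flip α) 0 ∧
    ∀ᶠ t in 𝓝 (0 : ℝ), ∀ u, P v (A t u) (A t u) =
      (A t).comp ((P v u u).comp (ContinuousLinearMap.adjoint (A t)))

/-- The output of the first half of step 8. -/
structure CData (m : ℕ) (X B : Type*) [TopologicalSpace B] where
  em : X → B
  ep : X → B
  a : X → B → Eu m
  P : X → Eu m →L[ℝ] Eu m →L[ℝ] (Eu m →L[ℝ] Eu m)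
  P_symm : ∀ w x u, P w x u = P w u x
  /-- the inverse of the chart -/
  ai : X → Eu m → B
  ai_ne : ∀ w x, ai w x ≠ em w
  a_ai : ∀ w x, a w (ai w x) = x
  a_inj : ∀ w, InjOn (a w) {em w}ᶜ
  a_cont : ∀ w, ContinuousOn (a w) {em w}ᶜ
  frame : ∀ ξ η, ξ ≠ η → ∃ v, em v = ξ ∧ ep v = η
  trans : ∀ w w' η, η ≠ em w → η ≠ em w' → ∃ A : Eu m ≃L[ℝ] Eu m,
    HasFDerivAt (fun x => a w' (ai w x)) (A : Eu m →L[ℝ] Eu m) (a w η) ∧
    ∀ u, P w' (A u) (A u) = (A : Eu m →L[ℝ] Eu m).comp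
      ((P w u u).comp (ContinuousLinearMap.adjoint (A : Eu m →L[ℝ] Eu m)))
  aff : ∀ w w', em w = em w' → ∃ (A : Eu m ≃L[ℝ] Eu m) (b : Eu m), ∀ η, η ≠ em w →
    a w' η = A (a w η) + b
  curve : ∀ v α, ∃ y, Curve em a P v α y
  reach : ∀ v ξ, ξ ≠ em v → ξ ≠ ep v → ∃ α, α ≠ 0 ∧ ∃ y, Curve em a P v α y ∧ em (y 1) = ξ

variable [TopologicalSpace B]

namespace CData

variable (F : CData m X B)

theorem ai_a {w : X} {η : B} (h : η ≠ F.em w) : F.ai w (F.a w η) = η :=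
  F.a_inj w (F.ai_ne w _) h (F.a_ai w _)

theorem a_bij (w : X) : BijOn (F.a w) {F.em w}ᶜ univ :=
  ⟨fun _ _ => mem_univ _, F.a_inj w, fun x _ => ⟨F.ai w x, F.ai_ne w x, F.a_ai w x⟩⟩

/-- the quadratic field of direction `α` -/
def Q (w : X) (α : Eu m) : Eu m →L[ℝ] Eu m →L[ℝ] Eu m :=
  LinearMap.toContinuousLinearMap
    { toFun := fun x => (1 / 2 : ℝ) • (F.P w x).flip α
      map_add' := fun x y => by ext u; simp
      map_smul' := fun r x => by ext u; simp; ring }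

theorem Q_apply (w : X) (α x u : Eu m) : F.Q w α x u = (1 / 2 : ℝ) • F.P w x u α := rfl

variable [CompactSpace B] [T1Space B]

/-- nondegeneracy -/
theorem nondeg (w : X) {u α : Eu m} (hu : u ≠ 0) (hα : α ≠ 0) : F.P w u u α ≠ 0 := by
  obtain ⟨y, hy⟩ := F.curve w α
  have h := Vale.Agent.P207.H799.nondeg (hy.inj hα) (a := fun t => F.a (y t))
    (fun t => F.a_cont (y t))
    (fun x => ⟨F.ai (y 0) x, F.ai_ne _ _, F.a_ai _ _⟩) (Q := F.Q w α)
    (fun t η hη => by simpa only [Q_apply] using hy.ode t η hη) (hy.blow hα) hu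
  intro h0
  apply h
  rw [Q_apply, h0, smul_zero]

/-- the function which determines the conformal structure -/
def rho (w : X) (u : Eu m) : ℝ := |(F.P w u u).det|

theorem rho_pos2 (w : X) : Pos2 m (F.rho w) :=
  pos2_of_det (F.P w) fun _ hu _ ha => F.nondeg w hu ha

/-- the canonical linear normal form of a positive homogeneous function -/
def canS (hm : 0 < m) : (Eu m → ℝ) → (Eu m ≃L[ℝ] Eu m) := Classical.choose (exists_conf hm)

omit [TopologicalSpace B] [CompactSpace B] [T1Space B] in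
theorem canS_spec (hm : 0 < m) {ρ ρ' : Eu m → ℝ} (h : Pos2 m ρ) (h' : Pos2 m ρ')
    (A : Eu m ≃L[ℝ] Eu m) (hA : ∀ u, ρ' (A u) = |(A : Eu m →L[ℝ] Eu m).det| ^ 2 * ρ u)
    {s : ℝ} (hs : 0 < s) (hsA : s ^ m * |(A : Eu m →L[ℝ] Eu m).det| = 1) (x : Eu m) :
    ‖canS hm ρ' (A x)‖ = s⁻¹ * ‖canS hm ρ x‖ :=
  Classical.choose_spec (exists_conf hm) ρ ρ' h h' A hA s hs hsA x

/-- the linear normal form of the frame `w` -/
def S (hm : 0 < m) (w : X) : Eu m ≃L[ℝ] Eu m := canS hm (F.rho w)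

omit [CompactSpace B] [T1Space B] in
theorem S_congr (hm : 0 < m) {w w' : X} (h : F.P w = F.P w') : F.S hm w = F.S hm w' := by
  have : F.rho w = F.rho w' := by funext u; simp only [rho, h]
  rw [S, S, this]

/-- equivariant maps are similarities -/
theorem S_sim (hm : 0 < m) {w w' : X} {A : Eu m ≃L[ℝ] Eu m}
    (hA : ∀ u, F.P w' (A u) (A u) = (A : Eu m →L[ℝ] Eu m).comp
      ((F.P w u u).comp (ContinuousLinearMap.adjoint (A : Eu m →L[ℝ] Eu m)))) :
    ∃ k > 0, ∀ x, ‖F.S hm w' (A x)‖ = k * ‖F.S hm w x‖ := by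
  have hdet : 0 < |(A : Eu m →L[ℝ] Eu m).det| :=
    abs_pos.2 (LinearEquiv.isUnit_det' A.toLinearEquiv).ne_zero
  have hs : 0 < |(A : Eu m →L[ℝ] Eu m).det| ^ (-(1 : ℝ) / m) := Real.rpow_pos_of_pos hdet _
  refine ⟨(|(A : Eu m →L[ℝ] Eu m).det| ^ (-(1 : ℝ) / m))⁻¹, inv_pos.2 hs, fun x => ?_⟩
  refine canS_spec hm (F.rho_pos2 w) (F.rho_pos2 w') A
    (fun u => det_equiv (A := (A : Eu m →L[ℝ] Eu m)) hA u) hs ?_ x
  have hm' : (m : ℝ) ≠ 0 := by positivity
  rw [← Real.rpow_natCast (|(A : Eu m →L[ℝ] Eu m).det| ^ (-(1 : ℝ) / m)) m,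
    ← Real.rpow_mul hdet.le, div_mul_cancel₀ _ hm', Real.rpow_neg_one, inv_mul_cancel₀ hdet.ne']

/-- the field `P (x, x) α` is the standard conformal one in the normal form -/
theorem field (hm : 0 < m) {v : X} {α : Eu m} (hα : α ≠ 0) : ∃ c : Eu m, c ≠ 0 ∧
    ∀ x, F.S hm v ((1 / 2 : ℝ) • F.P v x x α) = qf c (F.S hm v x) := by
  obtain ⟨y, hy⟩ := F.curve v α
  -- infinitesimal similarity
  have h1 : ∀ x ∈ ball (0 : Eu m) 1, ∃ l : ℝ, ∀ y z,
      ⟪F.S hm v ((F.P v x).flip α ((F.S hm v).symm y)), z⟫ +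
        ⟪y, F.S hm v ((F.P v x).flip α ((F.S hm v).symm z))⟫ = 2 * l * ⟪y, z⟫ := by
    intro x hx
    obtain ⟨A, hA0, hA, hAP⟩ := hy.lin x hx
    refine conf_inf (S := canS hm) (ρ := F.rho v) (fun A hA s hs hsA x =>
      canS_spec hm (F.rho_pos2 v) (F.rho_pos2 v) A hA hs hsA x) hm hA0 hA ?_
    filter_upwards [hAP] with t ht
    exact fun u => det_equiv ht u
  have h2 : ∀ x : Eu m, ∃ l : ℝ, ∀ y z,
      ⟪F.S hm v ((F.P v x).flip α ((F.S hm v).symm y)), z⟫ +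
        ⟪y, F.S hm v ((F.P v x).flip α ((F.S hm v).symm z))⟫ = 2 * l * ⟪y, z⟫ := by
    intro x
    have hr : 0 < (‖x‖ + 1)⁻¹ := by positivity
    obtain ⟨l, hl⟩ := h1 ((‖x‖ + 1)⁻¹ • x) (by
      rw [mem_ball_zero_iff, norm_smul, Real.norm_of_nonneg hr.le, inv_mul_lt_one₀ (by positivity)]
      linarith)
    refine ⟨(‖x‖ + 1) * l, fun y z => ?_⟩
    have h := hl y z
    have e : ∀ y, F.S hm v ((F.P v ((‖x‖ + 1)⁻¹ • x)).flip α ((F.S hm v).symm y))
        = (‖x‖ + 1)⁻¹ • F.S hm v ((F.P v x).flip α ((F.S hm v).symm y)) := by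
      intro y
      simp
    rw [e, e, inner_smul_left, inner_smul_right, conj_trivial] at h
    have hne : ‖x‖ + 1 ≠ 0 := by positivity
    field_simp at h
    linarith
  let Bq : Eu m →L[ℝ] Eu m →L[ℝ] Eu m := LinearMap.toContinuousLinearMap
    { toFun := fun z => (F.S hm v : Eu m →L[ℝ] Eu m).comp
        ((F.Q v α ((F.S hm v).symm z)).comp ((F.S hm v).symm : Eu m →L[ℝ] Eu m))
      map_add' := fun x y => by ext u; simp
      map_smul' := fun r x => by ext u; simp }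
  have hBq : ∀ z z', Bq z z'
      = F.S hm v ((1 / 2 : ℝ) • F.P v ((F.S hm v).symm z) ((F.S hm v).symm z') α) := fun z z' => rfl
  obtain ⟨c, hc⟩ := quad_conf Bq (fun z z' => by rw [hBq, hBq, F.P_symm]) (by
    intro z
    obtain ⟨l, hl⟩ := h2 ((F.S hm v).symm z)
    refine ⟨l / 2, fun y' z' => ?_⟩
    have h := hl y' z'
    rw [hBq, hBq, map_smul, map_smul, inner_smul_left, inner_smul_right, conj_trivial]
    simp only [ContinuousLinearMap.flip_apply] at h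
    linarith)
  have hfin : ∀ x, F.S hm v ((1 / 2 : ℝ) • F.P v x x α) = qf c (F.S hm v x) := by
    intro x
    have h := hc (F.S hm v x) (F.S hm v x)
    rw [hBq] at h
    simp only [ContinuousLinearEquiv.symm_apply_apply] at h
    rw [h, qf, real_inner_self_eq_norm_sq, two_mul, add_smul]
  refine ⟨c, ?_, hfin⟩
  rintro rfl
  have _ : Nonempty (Fin m) := ⟨⟨0, hm⟩⟩
  obtain ⟨u, hu⟩ := exists_ne (0 : Eu m)
  have h := hfin u
  have h0 : qf (0 : Eu m) (F.S hm v u) = 0 := by simp [qf]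
  rw [h0] at h
  have h3 : (1 / 2 : ℝ) • F.P v u u α = 0 := by
    rw [← (F.S hm v).map_eq_zero_iff]; exact h
  exact F.nondeg v hu hα ((smul_eq_zero.1 h3).resolve_left (by norm_num))

omit [CompactSpace B] [T1Space B] in
/-- In the normal form the moving charts are given by the flow. -/
theorem flow_of (hm : 0 < m) {v : X} {α c : Eu m} {y : ℝ → X} (hy : Curve F.em F.a F.P v α y)
    (hc : ∀ x, F.S hm v ((1 / 2 : ℝ) • F.P v x x α) = qf c (F.S hm v x)) {η : B} {T : ℝ}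
    (hT : 0 ≤ T) (hη : ∀ t ∈ Icc (0 : ℝ) T, η ≠ F.em (y t)) :
    0 < den c T (F.S hm v (F.a v η)) ∧
      F.S hm v (F.a (y T) η) = flw c T (F.S hm v (F.a v η)) := by
  have h := flow_conf (c := c) (T := T) (x := fun t => F.S hm v (F.a (y t) η)) (fun t ht => by
    have h1 := (F.S hm v : Eu m →L[ℝ] Eu m).hasFDerivAt.comp_hasDerivAt t (hy.ode t η (hη t ht))
    have h2 : (F.S hm v : Eu m →L[ℝ] Eu m) ((1 / 2 : ℝ) • F.P v (F.a (y t) η) (F.a (y t) η) α)
        = qf c (F.S hm v (F.a (y t) η)) := hc _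
    rw [h2] at h1
    exact h1) (right_mem_Icc.2 hT)
  simp only [hy.zero] at h
  exact h

omit [CompactSpace B] [T1Space B] in
/-- the blow up in the normal form -/
theorem blow_S (hm : 0 < m) {v : X} {α : Eu m} {y : ℝ → X} (hy : Curve F.em F.a F.P v α y)
    (hα : α ≠ 0) (t : ℝ) :
    Tendsto (fun τ => ‖F.S hm v (F.a (y τ) (F.em (y t)))‖) (𝓝[<] t) atTop := by
  have hK : 0 < (‖((F.S hm v).symm : Eu m →L[ℝ] Eu m)‖ + 1)⁻¹ := by positivity
  refine tendsto_atTop_mono (fun τ => ?_) ((hy.blow hα t).const_mul_atTop hK)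
  set x := F.a (y τ) (F.em (y t))
  have h1 : ‖x‖ ≤ ‖((F.S hm v).symm : Eu m →L[ℝ] Eu m)‖ * ‖F.S hm v x‖ := by
    have := ((F.S hm v).symm : Eu m →L[ℝ] Eu m).le_opNorm (F.S hm v x)
    rwa [ContinuousLinearEquiv.coe_coe, ContinuousLinearEquiv.symm_apply_apply] at this
  rw [inv_mul_le_iff₀ (by positivity)]
  nlinarith [norm_nonneg (F.S hm v x)]

omit [CompactSpace B] [T1Space B] in
/-- the pole of the flow is the moving end point -/
theorem pole_of (hm : 0 < m) {v : X} {α c : Eu m} {y : ℝ → X} (hy : Curve F.em F.a F.P v α y)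
    (hα : α ≠ 0) (hc : ∀ x, F.S hm v ((1 / 2 : ℝ) • F.P v x x α) = qf c (F.S hm v x)) {t : ℝ}
    (ht : 0 < t) : den c t (F.S hm v (F.a v (F.em (y t)))) = 0 := by
  by_contra hne
  set z := F.S hm v (F.a v (F.em (y t))) with hz
  have h1 : ∀ T ∈ Ico (0 : ℝ) t, F.S hm v (F.a (y T) (F.em (y t))) = flw c T z := by
    intro T hT
    refine (F.flow_of hm hy hc hT.1 fun s hs h => ?_).2
    exact (hs.2.trans_lt hT.2).ne' (hy.inj hα h)
  have hcont : ContinuousAt (fun T => ‖flw c T z‖) t := by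
    have hd : ContinuousAt (fun T => den c T z) t := by unfold den; fun_prop
    have : ContinuousAt (fun T => (den c T z)⁻¹ • (z - (T * ‖z‖ ^ 2) • c)) t :=
      (hd.inv₀ hne).smul (by fun_prop)
    exact this.norm
  have h2 : Tendsto (fun T => ‖flw c T z‖) (𝓝[<] t) (𝓝 ‖flw c t z‖) :=
    hcont.tendsto.mono_left nhdsWithin_le_nhds
  have h3 : Tendsto (fun T => ‖flw c T z‖) (𝓝[<] t) atTop := by
    refine (F.blow_S hm hy hα t).congr' ?_
    filter_upwards [Ioo_mem_nhdsLT ht] with T hT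
    rw [h1 T ⟨hT.1.le, hT.2⟩]
  exact not_tendsto_nhds_of_tendsto_atTop h3 _ h2

end CData

end CD

end Vale.Agent.P207.H799
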