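import Mathlib

/-!
# P207, all dimensions: quadratic conformal fields and their flow

`quad_conf`: a quadratic vector field all of whose derivatives are conformal is
`2 ⟪c, x⟫ x - |x|² c`. `flow_conf`: the flow of such a field, its pole and its derivative.
-/

open Set Filter Topology Metric MeasureTheory
open scoped ContDiff RealInnerProductSpace

noncomputable section

namespace Vale.Agent.P207.H799

/-- Euclidean space -/
abbrev Eu (m : ℕ) : Type := EuclideanSpace ℝ (Fin m)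

section Quad

variable {E : Type*} [NormedAddCommGroup E] [InnerProductSpace ℝ E] [FiniteDimensional ℝ E]

omit [FiniteDimensional ℝ E] in
/-- (a) A symmetric bilinear map `B` such that every `B x` is an infinitesimal similarity. -/
theorem quad_conf_fun (B : E →L[ℝ] E →L[ℝ] E) (hs : ∀ x y, B x y = B y x) (l : E → ℝ)
    (hc : ∀ x y z, ⟪B x y, z⟫ + ⟪y, B x z⟫ = 2 * l x * ⟪y, z⟫) (x y z : E) :
    ⟪B x y, z⟫ = l x * ⟪y, z⟫ + l y * ⟪x, z⟫ - l z * ⟪x, y⟫ := by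
  have h1 := hc x y z
  have h2 := hc y x z
  have h3 := hc z x y
  rw [real_inner_comm (B x z) y] at h1
  rw [real_inner_comm (B y z) x] at h2
  rw [real_inner_comm (B z y) x] at h3
  rw [hs y x] at h2
  rw [hs z x, hs z y] at h3
  linarith

theorem quad_conf (B : E →L[ℝ] E →L[ℝ] E) (hs : ∀ x y, B x y = B y x)
    (hc : ∀ x, ∃ l : ℝ, ∀ y z, ⟪B x y, z⟫ + ⟪y, B x z⟫ = 2 * l * ⟪y, z⟫) :
    ∃ c : E, ∀ x y, B x y = ⟪c, x⟫ • y + ⟪c, y⟫ • x - ⟪x, y⟫ • c := by
  choose l hl using hc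
  rcases subsingleton_or_nontrivial E with hE | hE
  · exact ⟨0, fun x y => Subsingleton.elim _ _⟩
  obtain ⟨e, he⟩ := exists_ne (0 : E)
  have he2 : ⟪e, e⟫ ≠ 0 := by
    rw [real_inner_self_eq_norm_sq]; exact pow_ne_zero 2 (norm_ne_zero_iff.2 he)
  -- `l` is linear
  have hlin : ∀ x, l x = ⟪B x e, e⟫ / ⟪e, e⟫ := by
    intro x
    have := hl x e e
    rw [real_inner_comm (B x e) e] at this
    field_simp
    linarith
  let L : E →L[ℝ] ℝ := (⟪e, e⟫)⁻¹ • ((innerSL ℝ e).comp (B.flip e))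
  have hL : ∀ x, l x = L x := by
    intro x
    rw [hlin x]
    simp only [L, _root_.smul_apply, ContinuousLinearMap.comp_apply,
      ContinuousLinearMap.flip_apply, innerSL_apply_apply, smul_eq_mul]
    rw [real_inner_comm (B x e) e]
    ring
  let c : E := (InnerProductSpace.toDual ℝ E).symm L
  have hcl : ∀ x, l x = ⟪c, x⟫ := by
    intro x
    rw [hL x]
    simp [c]
  refine ⟨c, fun x y => ?_⟩
  refine ext_inner_right ℝ fun z => ?_
  rw [quad_conf_fun B hs l hl x y z, inner_sub_left, inner_add_left, inner_smul_left,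
    inner_smul_left, inner_smul_left, hcl x, hcl y, hcl z]
  simp only [conj_trivial]
  ring

end Quad

section Flow

variable {E : Type*} [NormedAddCommGroup E] [InnerProductSpace ℝ E]

/-- the quadratic conformal field -/
def qf (c x : E) : E := (2 * ⟪c, x⟫) • x - ‖x‖ ^ 2 • c

/-- the denominator of its flow -/
def den (c : E) (t : ℝ) (x : E) : ℝ := 1 - 2 * t * ⟪c, x⟫ + t ^ 2 * ‖c‖ ^ 2 * ‖x‖ ^ 2

/-- its flow -/
def flw (c : E) (t : ℝ) (x : E) : E := (den c t x)⁻¹ • (x - (t * ‖x‖ ^ 2) • c)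

theorem qf_zero (c : E) : qf c 0 = 0 := by simp [qf]

theorem den_zero (c : E) (t : ℝ) : den c t 0 = 1 := by simp [den]

theorem flw_zero (c : E) (t : ℝ) : flw c t 0 = 0 := by simp [flw]

/-- the numerator has norm square `|x|² den` -/
theorem norm_num_sq (c : E) (t : ℝ) (x : E) :
    ‖x - (t * ‖x‖ ^ 2) • c‖ ^ 2 = ‖x‖ ^ 2 * den c t x := by
  rw [norm_sub_sq_real, inner_smul_right, norm_smul, mul_pow, Real.norm_eq_abs, sq_abs, den,
    real_inner_comm c x]
  ring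

theorem den_nonneg (c : E) (t : ℝ) (x : E) : 0 ≤ den c t x := by
  rcases eq_or_ne x 0 with rfl | hx
  · rw [den_zero]; exact zero_le_one
  · have h := norm_num_sq c t x
    have hx2 : 0 < ‖x‖ ^ 2 := pow_pos (norm_pos_iff.2 hx) 2
    have : 0 ≤ ‖x‖ ^ 2 * den c t x := by rw [← h]; positivity
    exact nonneg_of_mul_nonneg_right this hx2

/-- the pole -/
theorem den_eq_pole {c : E} (hc : c ≠ 0) {t : ℝ} (ht : t ≠ 0) (x : E) :
    den c t x = t ^ 2 * ‖c‖ ^ 2 * ‖x - (t * ‖c‖ ^ 2)⁻¹ • c‖ ^ 2 := by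
  have hc2 : ‖c‖ ≠ 0 := norm_ne_zero_iff.2 hc
  rw [norm_sub_sq_real, inner_smul_right, norm_smul, mul_pow, Real.norm_eq_abs, sq_abs, den,
    real_inner_comm c x]
  field_simp
  ring

theorem qf_lip (c : E) {R : ℝ} {x y : E} (hx : ‖x‖ ≤ R) (hy : ‖y‖ ≤ R) :
    ‖qf c x - qf c y‖ ≤ 6 * ‖c‖ * R * ‖x - y‖ := by
  have e : qf c x - qf c y = (2 * ⟪c, x⟫) • (x - y) + (2 * ⟪c, x - y⟫) • y
      - ((‖x‖ - ‖y‖) * (‖x‖ + ‖y‖)) • c := by
    simp only [qf, inner_sub_right, smul_sub, mul_sub, sub_smul, mul_add, add_smul, pow_two,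
      sub_mul]
    rw [mul_comm ‖y‖ ‖x‖]
    abel
  have hR : 0 ≤ R := (norm_nonneg x).trans hx
  have h1 : ‖(2 * ⟪c, x⟫) • (x - y)‖ ≤ 2 * (‖c‖ * R) * ‖x - y‖ := by
    rw [norm_smul, norm_mul, Real.norm_two]
    gcongr
    exact (norm_inner_le_norm c x).trans (by gcongr)
  have h2 : ‖(2 * ⟪c, x - y⟫) • y‖ ≤ 2 * (‖c‖ * ‖x - y‖) * R := by
    rw [norm_smul, norm_mul, Real.norm_two]
    gcongr
    exact norm_inner_le_norm c _
  have h3 : ‖((‖x‖ - ‖y‖) * (‖x‖ + ‖y‖)) • c‖ ≤ ‖x - y‖ * (R + R) * ‖c‖ := by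
    rw [norm_smul, norm_mul]
    gcongr
    · exact abs_norm_sub_norm_le x y
    · rw [Real.norm_of_nonneg (by positivity)]; gcongr
  rw [e]
  calc _ ≤ ‖(2 * ⟪c, x⟫) • (x - y)‖ + ‖(2 * ⟪c, x - y⟫) • y‖
        + ‖((‖x‖ - ‖y‖) * (‖x‖ + ‖y‖)) • c‖ :=
        (norm_sub_le _ _).trans (add_le_add_left (norm_add_le _ _) _)
    _ ≤ 2 * (‖c‖ * R) * ‖x - y‖ + 2 * (‖c‖ * ‖x - y‖) * R + ‖x - y‖ * (R + R) * ‖c‖ := by
        gcongr
    _ = _ := by ring

theorem qf_lipOn (c : E) {R : ℝ} (hR : 0 ≤ R) :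
    LipschitzOnWith ⟨6 * ‖c‖ * R, by positivity⟩ (qf c) (closedBall 0 R) := by
  refine LipschitzOnWith.of_dist_le_mul fun x hx y hy => ?_
  rw [dist_eq_norm, dist_eq_norm]
  exact qf_lip c (mem_closedBall_zero_iff.1 hx) (mem_closedBall_zero_iff.1 hy)

/-- a solution which vanishes once vanishes identically -/
theorem zero_of_zero {c : E} {T : ℝ} {x : ℝ → E}
    (hx : ∀ t ∈ Icc (0 : ℝ) T, HasDerivAt x (qf c (x t)) t) {s : ℝ} (hs : s ∈ Icc (0 : ℝ) T)
    (h0 : x s = 0) : ∀ t ∈ Icc (0 : ℝ) T, x t = 0 := by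
  have hcont : ContinuousOn x (Icc 0 T) := fun t ht => (hx t ht).continuousAt.continuousWithinAt
  obtain ⟨R, hR⟩ := (isCompact_Icc.image_of_continuousOn hcont).isBounded.subset_closedBall 0
  have hR0 : 0 ≤ R := by
    have := hR (mem_image_of_mem x hs)
    rw [h0] at this
    simpa using this
  have hmem : ∀ t ∈ Icc (0 : ℝ) T, x t ∈ closedBall (0 : E) R :=
    fun t ht => hR (mem_image_of_mem x ht)
  have h0mem : (0 : E) ∈ closedBall (0 : E) R := by simpa using hR0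
  intro t ht
  rcases le_total s t with hst | hst
  · -- to the right
    have := ODE_solution_unique_of_mem_Icc_right (v := fun _ => qf c)
      (s := fun _ => closedBall (0 : E) R) (K := ⟨6 * ‖c‖ * R, by positivity⟩)
      (f := x) (g := fun _ => (0 : E)) (a := s) (b := T)
      (fun _ _ => qf_lipOn c hR0)
      (hcont.mono (Icc_subset_Icc_left hs.1))
      (fun u hu => (hx u ⟨hs.1.trans hu.1, hu.2.le⟩).hasDerivWithinAt)
      (fun u hu => hmem u ⟨hs.1.trans hu.1, hu.2.le⟩)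
      continuousOn_const
      (fun u _ => by simpa [qf_zero] using (hasDerivAt_const u (0 : E)).hasDerivWithinAt)
      (fun _ _ => h0mem) h0
    exact this ⟨hst, ht.2⟩
  · have := ODE_solution_unique_of_mem_Icc_left (v := fun _ => qf c)
      (s := fun _ => closedBall (0 : E) R) (K := ⟨6 * ‖c‖ * R, by positivity⟩)
      (f := x) (g := fun _ => (0 : E)) (a := 0) (b := s)
      (fun _ _ => qf_lipOn c hR0)
      (hcont.mono (Icc_subset_Icc_right hs.2))
      (fun u hu => (hx u ⟨hu.1.le, hu.2.trans hs.2⟩).hasDerivWithinAt)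
      (fun u hu => hmem u ⟨hu.1.le, hu.2.trans hs.2⟩)
      continuousOn_const
      (fun u _ => by simpa [qf_zero] using (hasDerivAt_const u (0 : E)).hasDerivWithinAt)
      (fun _ _ => h0mem) h0
    exact this ⟨ht.1, hst⟩

/-- (b) the solutions of the quadratic conformal equation -/
theorem flow_conf {c : E} {T : ℝ} {x : ℝ → E}
    (hx : ∀ t ∈ Icc (0 : ℝ) T, HasDerivAt x (qf c (x t)) t) {t : ℝ} (ht : t ∈ Icc (0 : ℝ) T) :
    0 < den c t (x 0) ∧ x t = flw c t (x 0) := by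
  have hT : (0 : ℝ) ≤ T := ht.1.trans ht.2
  rcases eq_or_ne (x 0) 0 with h0 | h0
  · have := zero_of_zero hx (left_mem_Icc.2 hT) h0
    rw [this t ht, h0, den_zero, flw_zero]
    exact ⟨one_pos, rfl⟩
  · have hne : ∀ s ∈ Icc (0 : ℝ) T, x s ≠ 0 := fun s hs h =>
      h0 (zero_of_zero hx hs h 0 (left_mem_Icc.2 hT))
    -- the inverted curve moves with constant velocity
    have hder : ∀ s ∈ Icc (0 : ℝ) T,
        HasDerivAt (fun s => (‖x s‖ ^ 2)⁻¹ • x s + s • c) 0 s := by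
      intro s hs
      have hn : ‖x s‖ ^ 2 ≠ 0 := pow_ne_zero 2 (norm_ne_zero_iff.2 (hne s hs))
      have h1 : HasDerivAt (fun s => ‖x s‖ ^ 2) (2 * ⟪x s, qf c (x s)⟫) s := (hx s hs).norm_sq
      have h2 := (h1.inv hn).smul (hx s hs)
      have h3 := h2.add ((hasDerivAt_id s).smul_const c)
      refine h3.congr_deriv ?_
      have e1 : ⟪x s, qf c (x s)⟫ = ⟪c, x s⟫ * ‖x s‖ ^ 2 := by
        rw [qf, inner_sub_right, inner_smul_right, inner_smul_right, real_inner_self_eq_norm_sq,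
          real_inner_comm c (x s)]
        ring
      rw [e1]
      simp only [Pi.inv_apply, qf, smul_sub, smul_smul, one_smul]
      have e2 : (‖x s‖ ^ 2)⁻¹ * ‖x s‖ ^ 2 = 1 := inv_mul_cancel₀ hn
      rw [e2, one_smul]
      have e3 : -(2 * (⟪c, x s⟫ * ‖x s‖ ^ 2)) / (‖x s‖ ^ 2) ^ 2
          = -((‖x s‖ ^ 2)⁻¹ * (2 * ⟪c, x s⟫)) := by
        field_simp
      rw [e3]
      module
    have hconst : (‖x t‖ ^ 2)⁻¹ • x t + t • c = (‖x 0‖ ^ 2)⁻¹ • x 0 + (0 : ℝ) • c := by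
      have := constant_of_derivWithin_zero (f := fun s => (‖x s‖ ^ 2)⁻¹ • x s + s • c)
        (a := 0) (b := T)
        (fun s hs => (hder s hs).differentiableAt.differentiableWithinAt)
        (fun s hs => by
          have hs' : s ∈ Icc (0 : ℝ) T := ⟨hs.1, hs.2.le⟩
          exact (hder s hs').hasDerivWithinAt.derivWithin
            (uniqueDiffOn_Icc (lt_of_le_of_lt hs.1 hs.2) s hs'))
      exact this t ht
    rw [zero_smul, add_zero] at hconst
    have hy : (‖x t‖ ^ 2)⁻¹ • x t = (‖x 0‖ ^ 2)⁻¹ • (x 0 - (t * ‖x 0‖ ^ 2) • c) := by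
      have hn : ‖x 0‖ ^ 2 ≠ 0 := pow_ne_zero 2 (norm_ne_zero_iff.2 h0)
      rw [smul_sub, smul_smul]
      have : (‖x 0‖ ^ 2)⁻¹ * (t * ‖x 0‖ ^ 2) = t := by field_simp
      rw [this, ← hconst]
      abel
    have hnt : ‖x t‖ ≠ 0 := norm_ne_zero_iff.2 (hne t ht)
    have hn0 : ‖x 0‖ ≠ 0 := norm_ne_zero_iff.2 h0
    have hnorm : (‖x t‖ ^ 2)⁻¹ = (‖x 0‖ ^ 2)⁻¹ * den c t (x 0) := by
      have h := congrArg (fun z => ‖z‖ ^ 2) hy
      simp only [norm_smul, mul_pow, norm_inv, norm_pow, norm_norm] at h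
      rw [norm_num_sq] at h
      field_simp at h ⊢
      linarith
    have hden : 0 < den c t (x 0) := by
      have h1 : 0 < (‖x t‖ ^ 2)⁻¹ := by positivity
      have h2 : 0 < (‖x 0‖ ^ 2)⁻¹ := by positivity
      rw [hnorm] at h1
      exact (pos_iff_pos_of_mul_pos h1).1 h2
    refine ⟨hden, ?_⟩
    rw [flw]
    have hn : (‖x 0‖ ^ 2)⁻¹ ≠ 0 := by positivity
    have hd : den c t (x 0) ≠ 0 := hden.ne'
    have h5 : (‖x 0‖ ^ 2)⁻¹ • (x 0 - (t * ‖x 0‖ ^ 2) • c)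
        = ((‖x 0‖ ^ 2)⁻¹ * den c t (x 0)) • x t := by
      rw [← hy, hnorm]
    rw [mul_smul (‖x 0‖ ^ 2)⁻¹ (den c t (x 0)) (x t)] at h5
    have h6 : x 0 - (t * ‖x 0‖ ^ 2) • c = den c t (x 0) • x t := smul_right_injective E hn h5
    rw [h6, smul_smul, inv_mul_cancel₀ hd, one_smul]

/-- The derivative of the flow. -/
def dflw (c : E) (t : ℝ) (x : E) : E →L[ℝ] E :=
  (den c t x)⁻¹ • (ContinuousLinearMap.id ℝ E - (2 * t) • ((innerSL ℝ x).smulRight c))
    - (den c t x ^ 2)⁻¹ • (((-2 * t) • innerSL ℝ c + (2 * t ^ 2 * ‖c‖ ^ 2) • innerSL ℝ x).smulRight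
        (x - (t * ‖x‖ ^ 2) • c))

theorem hasFDerivAt_den (c : E) (t : ℝ) (x : E) :
    HasFDerivAt (den c t) ((-2 * t) • innerSL ℝ c + (2 * t ^ 2 * ‖c‖ ^ 2) • innerSL ℝ x) x := by
  have h1 : HasFDerivAt (fun y : E => ⟪c, y⟫) (innerSL ℝ c) x := (innerSL ℝ c).hasFDerivAt
  have h2 : HasFDerivAt (fun y : E => ‖y‖ ^ 2) (2 • innerSL ℝ x) x :=
    (hasStrictFDerivAt_norm_sq x).hasFDerivAt
  have h3 := ((h1.const_mul (2 * t)).const_sub 1).add (h2.const_mul (t ^ 2 * ‖c‖ ^ 2))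
  refine h3.congr_fderiv ?_
  ext u
  simp
  ring

theorem hasFDerivAt_flw {c : E} {t : ℝ} {x : E} (h : den c t x ≠ 0) :
    HasFDerivAt (flw c t) (dflw c t x) x := by
  have h2 : HasFDerivAt (fun y : E => ‖y‖ ^ 2) (2 • innerSL ℝ x) x :=
    (hasStrictFDerivAt_norm_sq x).hasFDerivAt
  have h3 : HasFDerivAt (fun y : E => y - (t * ‖y‖ ^ 2) • c)
      (ContinuousLinearMap.id ℝ E - (t • (2 • innerSL ℝ x)).smulRight c) x :=
    (hasFDerivAt_id x).sub ((h2.const_mul t).smul_const c)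
  have h1 : HasFDerivAt (fun y : E => (den c t y)⁻¹) _ x :=
    (hasDerivAt_inv h).comp_hasFDerivAt x (hasFDerivAt_den c t x)
  have h4 := h1.smul h3
  refine h4.congr_fderiv ?_
  ext u
  simp [dflw]
  module

theorem norm_dflw {c : E} {t : ℝ} {x : E} (h : den c t x ≠ 0) (u : E) :
    ‖dflw c t x u‖ = (den c t x)⁻¹ * ‖u‖ := by
  have hd := den_nonneg c t x
  have key : ‖dflw c t x u‖ ^ 2 = ((den c t x)⁻¹ * ‖u‖) ^ 2 := by
    have e : dflw c t x u = (den c t x)⁻¹ • (u - (2 * t * ⟪x, u⟫) • c)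
        - ((den c t x ^ 2)⁻¹ * (-2 * t * ⟪c, u⟫ + 2 * t ^ 2 * ‖c‖ ^ 2 * ⟪x, u⟫)) •
          (x - (t * ‖x‖ ^ 2) • c) := by
      simp only [dflw]
      simp
      module
    rw [e, norm_sub_sq_real, inner_smul_left, inner_smul_right, norm_smul, norm_smul, mul_pow,
      mul_pow, norm_num_sq, norm_sub_sq_real, inner_smul_right, norm_smul, inner_sub_left,
      inner_sub_right, inner_sub_right, inner_smul_left, inner_smul_left, inner_smul_right,
      inner_smul_right, real_inner_self_eq_norm_sq, real_inner_comm c u, real_inner_comm x u]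
    simp only [conj_trivial, Real.norm_eq_abs, mul_pow, sq_abs, inv_pow]
    have hD : den c t x = 1 - 2 * t * ⟪c, x⟫ + t ^ 2 * ‖c‖ ^ 2 * ‖x‖ ^ 2 := rfl
    generalize hd' : den c t x = d at *
    generalize ⟪c, x⟫ = p at *
    generalize ⟪x, u⟫ = q at *
    generalize ⟪c, u⟫ = r at *
    generalize ‖x‖ = X at *
    generalize ‖c‖ = C at *
    generalize ‖u‖ = U at *
    field_simp
    subst hD
    ring
  have h1 : 0 ≤ (den c t x)⁻¹ * ‖u‖ := by positivity
  exact (sq_eq_sq₀ (norm_nonneg _) h1).1 key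

/-- the distance formula -/
theorem norm_flw_sub {c : E} {t : ℝ} {x y : E} (hx : den c t x ≠ 0) (hy : den c t y ≠ 0) :
    ‖flw c t x - flw c t y‖ ^ 2 = (den c t x)⁻¹ * (den c t y)⁻¹ * ‖x - y‖ ^ 2 := by
  rw [flw, flw, norm_sub_sq_real, norm_smul, norm_smul, mul_pow, mul_pow, norm_num_sq,
    norm_num_sq, inner_smul_left, inner_smul_right, inner_sub_left, inner_sub_right,
    inner_sub_right, inner_smul_left, inner_smul_left, inner_smul_right, inner_smul_right,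
    real_inner_self_eq_norm_sq, norm_sub_sq_real, real_inner_comm c x]
  simp only [conj_trivial, Real.norm_eq_abs, sq_abs, inv_pow]
  have hD : den c t x = 1 - 2 * t * ⟪c, x⟫ + t ^ 2 * ‖c‖ ^ 2 * ‖x‖ ^ 2 := rfl
  have hD' : den c t y = 1 - 2 * t * ⟪c, y⟫ + t ^ 2 * ‖c‖ ^ 2 * ‖y‖ ^ 2 := rfl
  generalize den c t x = d at *
  generalize den c t y = d' at *
  generalize ⟪c, x⟫ = p at *
  generalize ⟪c, y⟫ = p' at *
  generalize ⟪x, y⟫ = q at *
  generalize ‖x‖ = X at *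
  generalize ‖y‖ = Y at *
  generalize ‖c‖ = C at *
  field_simp
  subst hD hD'
  ring

/-- `D (flw c t) x` is `(den c t x)⁻¹` times a linear isometry. -/
theorem exists_iso_dflw [FiniteDimensional ℝ E] {c : E} {t : ℝ} {x : E} (h : den c t x ≠ 0) :
    ∃ A : E ≃ₗᵢ[ℝ] E, dflw c t x = (den c t x)⁻¹ • (A.toContinuousLinearEquiv : E →L[ℝ] E) := by
  have hd := den_nonneg c t x
  let L : E →ₗᵢ[ℝ] E :=
    { toLinearMap := ((den c t x) • dflw c t x : E →L[ℝ] E)
      norm_map' := fun u => by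
        change ‖den c t x • dflw c t x u‖ = ‖u‖
        rw [norm_smul, norm_dflw h, Real.norm_of_nonneg hd, ← mul_assoc, mul_inv_cancel₀ h,
          one_mul] }
  refine ⟨L.toLinearIsometryEquiv rfl, ?_⟩
  ext u
  change dflw c t x u = (den c t x)⁻¹ • (den c t x • dflw c t x u)
  rw [smul_smul, inv_mul_cancel₀ h, one_smul]

theorem abs_det_isometry [FiniteDimensional ℝ E] (A : E ≃ₗᵢ[ℝ] E) :
    |LinearMap.det (A.toLinearEquiv : E →ₗ[ℝ] E)| = 1 := by
  let _ : MeasurableSpace E := borel E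
  have _ : BorelSpace E := ⟨rfl⟩
  have h := Measure.addHaar_image_linearMap (volume : Measure E)
    (A.toLinearEquiv : E →ₗ[ℝ] E) (ball 0 1)
  have h1 : (A.toLinearEquiv : E →ₗ[ℝ] E) '' ball (0 : E) 1 = ball 0 1 := by
    have := A.image_ball 0 1
    rw [map_zero] at this
    exact this
  rw [h1] at h
  have hpos : (volume : Measure E) (ball 0 1) ≠ 0 := (measure_ball_pos _ _ one_pos).ne'
  have hfin : (volume : Measure E) (ball 0 1) ≠ ⊤ := measure_ball_lt_top.ne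
  have h2 : ENNReal.ofReal |LinearMap.det (A.toLinearEquiv : E →ₗ[ℝ] E)| = 1 := by
    have : 1 * (volume : Measure E) (ball 0 1)
        = ENNReal.ofReal |LinearMap.det (A.toLinearEquiv : E →ₗ[ℝ] E)| * volume (ball (0 : E) 1) := by
      rw [one_mul]; exact h
    exact ((ENNReal.mul_left_inj hpos hfin).1 this).symm
  have h3 := congrArg ENNReal.toReal h2
  rwa [ENNReal.toReal_ofReal (abs_nonneg _), ENNReal.toReal_one] at h3

theorem abs_det_dflw [FiniteDimensional ℝ E] {c : E} {t : ℝ} {x : E} (h : den c t x ≠ 0) :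
    |(dflw c t x).det| = ((den c t x)⁻¹) ^ Module.finrank ℝ E := by
  obtain ⟨A, hA⟩ := exists_iso_dflw h
  rw [hA, ContinuousLinearMap.det]
  have e : (((den c t x)⁻¹ • (A.toContinuousLinearEquiv : E →L[ℝ] E) : E →L[ℝ] E) : E →ₗ[ℝ] E)
      = (den c t x)⁻¹ • (A.toLinearEquiv : E →ₗ[ℝ] E) := rfl
  rw [e, LinearMap.det_smul, abs_mul, abs_det_isometry, mul_one, abs_pow,
    abs_of_nonneg (inv_nonneg.2 (den_nonneg c t x))]

end Flow

end Vale.Agent.P207.H799
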