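import Vale.Agent.P207.H799.Conf

/-!
# P207, all dimensions: charts moving along one line of the stable leaf

`b t : B ∖ {ξ t} → E` are the charts, every point `η` moves by the exact equation
`x' = (1/2) P x x`. `nondegN`: `P u u ≠ 0`. `curve_conf`: if all derivatives of `b t ∘ (b 0)⁻¹`
are similarities (after `S`), then `b 1 ∘ (b 0)⁻¹` has conformal factor `c / |x - pole|²`.
-/

open Set Filter Topology Metric MeasureTheory Module
open scoped ContDiff RealInnerProductSpace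

noncomputable section

namespace Vale.Agent.P207.H799

section Basic

variable {E : Type*} [NormedAddCommGroup E] [NormedSpace ℝ E]

theorem hq_lip (P : E →L[ℝ] E →L[ℝ] E) {R : ℝ} (hR : 0 ≤ R) :
    LipschitzOnWith ⟨‖P‖ * R, by positivity⟩ (fun x => (1 / 2 : ℝ) • P x x)
      (closedBall 0 R) := by
  refine LipschitzOnWith.of_dist_le_mul fun x hx y hy => ?_
  rw [dist_eq_norm, dist_eq_norm]
  have hx' := mem_closedBall_zero_iff.1 hx
  have hy' := mem_closedBall_zero_iff.1 hy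
  have e : (1 / 2 : ℝ) • P x x - (1 / 2 : ℝ) • P y y
      = (1 / 2 : ℝ) • (P x (x - y) + P (x - y) y) := by
    simp only [map_sub, sub_apply, smul_sub, smul_add]; abel
  rw [e]
  have h1 : ‖P x (x - y)‖ ≤ ‖P‖ * R * ‖x - y‖ :=
    (P.le_opNorm₂ x (x - y)).trans (by gcongr)
  have h2 : ‖P (x - y) y‖ ≤ ‖P‖ * R * ‖x - y‖ := by
    refine (P.le_opNorm₂ (x - y) y).trans ?_
    calc ‖P‖ * ‖x - y‖ * ‖y‖ ≤ ‖P‖ * ‖x - y‖ * R := by gcongr
      _ = _ := by ring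
  rw [norm_smul]
  calc ‖(1 / 2 : ℝ)‖ * ‖P x (x - y) + P (x - y) y‖
      ≤ (1 / 2) * (‖P‖ * R * ‖x - y‖ + ‖P‖ * R * ‖x - y‖) := by
        rw [Real.norm_of_nonneg (by norm_num)]
        gcongr
        exact (norm_add_le _ _).trans (add_le_add h1 h2)
    _ = ‖P‖ * R * ‖x - y‖ := by ring

/-- a zero of a quadratic field is a stationary point -/
theorem hconst_of_quad {P : E →L[ℝ] E →L[ℝ] E} {T : ℝ} {x : ℝ → E}
    (hx : ∀ t ∈ Ico (0 : ℝ) T, HasDerivAt x ((1 / 2 : ℝ) • P (x t) (x t)) t)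
    (h0 : P (x 0) (x 0) = 0) : ∀ t ∈ Ico (0 : ℝ) T, x t = x 0 := by
  intro t ht
  have hsub : Icc (0 : ℝ) t ⊆ Ico 0 T := fun s hs => ⟨hs.1, hs.2.trans_lt ht.2⟩
  have hcont : ContinuousOn x (Icc 0 t) :=
    fun s hs => (hx s (hsub hs)).continuousAt.continuousWithinAt
  obtain ⟨R, hR⟩ := (isCompact_Icc.image_of_continuousOn hcont).isBounded.subset_closedBall 0
  have hmem : ∀ s ∈ Icc (0 : ℝ) t, x s ∈ closedBall (0 : E) R :=
    fun s hs => hR (mem_image_of_mem x hs)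
  have h00 : (0 : ℝ) ∈ Icc (0 : ℝ) t := left_mem_Icc.2 ht.1
  have hR0 : 0 ≤ R := (norm_nonneg _).trans (mem_closedBall_zero_iff.1 (hmem 0 h00))
  have := ODE_solution_unique_of_mem_Icc_right (v := fun _ x => (1 / 2 : ℝ) • P x x)
    (s := fun _ => closedBall (0 : E) R) (K := ⟨‖P‖ * R, by positivity⟩)
    (f := x) (g := fun _ => x 0) (a := 0) (b := t)
    (fun _ _ => hq_lip P hR0)
    hcont
    (fun s hs => (hx s (hsub ⟨hs.1, hs.2.le⟩)).hasDerivWithinAt)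
    (fun s hs => hmem s ⟨hs.1, hs.2.le⟩)
    continuousOn_const
    (fun s _ => by simpa only [h0, smul_zero] using (hasDerivAt_const s (x 0)).hasDerivWithinAt)
    (fun _ _ => hmem 0 h00) rfl
  exact this (right_mem_Icc.2 ht.1)

/-- (N) nondegeneracy of the quadratic field -/
theorem nondegN {B : Type*} [TopologicalSpace B] [T1Space B] {P : E →L[ℝ] E →L[ℝ] E}
    {ξ : ℝ → B} (hi : Function.Injective ξ) {b : ℝ → B → E} {ai : E → B}
    (h1 : ∀ X, ai X ≠ ξ 0) (h2 : ∀ X, b 0 (ai X) = X)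
    (ode : ∀ t η, η ≠ ξ t → HasDerivAt (fun s => b s η) ((1 / 2 : ℝ) • P (b t η) (b t η)) t)
    (blow : ∀ t, Tendsto (fun s => ‖b s (ξ t)‖) (𝓝[≠] t) atTop)
    (hinf : ∀ z : ℕ → E, Tendsto (fun n => ‖z n‖) atTop atTop →
      Tendsto (fun n => ai (z n)) atTop (𝓝 (ξ 0)))
    (hc : ContinuousOn (b 1) {ξ 1}ᶜ) {u : E} (hu : u ≠ 0) : P u u ≠ 0 := by
  intro h
  have key : ∀ s : ℝ, b 1 (ai (s • u)) = s • u := by
    intro s
    set η := ai (s • u) with hη
    have h0 : b 0 η = s • u := h2 _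
    have hne0 : η ≠ ξ 0 := h1 _
    have hQ : P (b 0 η) (b 0 η) = 0 := by rw [h0]; simp [h]
    have hne : ∀ t ∈ Ico (0 : ℝ) 2, η ≠ ξ t := by
      intro t ht heq
      have ht0 : 0 < t := lt_of_le_of_ne ht.1 (by rintro rfl; exact hne0 heq)
      have hst : ∀ τ ∈ Ico (0 : ℝ) t, b τ η = b 0 η := by
        refine hconst_of_quad (x := fun τ => b τ η) (fun τ hτ => ode τ η ?_) hQ
        intro h'
        exact hτ.2.ne (hi (h'.symm.trans heq))
      have hb := (blow t).mono_left (nhdsWithin_mono t fun x (hx : x < t) => hx.ne)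
      rw [← heq] at hb
      have h1' : ∀ᶠ τ in 𝓝[<] t, ‖b 0 η‖ + 1 ≤ ‖b τ η‖ := hb.eventually_ge_atTop _
      have h2' : ∀ᶠ τ in 𝓝[<] t, τ ∈ Ico (0 : ℝ) t := by
        filter_upwards [Ioo_mem_nhdsLT ht0] with τ hτ using ⟨hτ.1.le, hτ.2⟩
      obtain ⟨τ, hτ1, hτ2⟩ := (h1'.and h2').exists
      rw [hst τ hτ2] at hτ1
      linarith
    have := hconst_of_quad (T := 2) (x := fun τ => b τ η) (fun t ht => ode t η (hne t ht)) hQ 1
      ⟨zero_le_one, one_lt_two⟩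
    exact this.trans h0
  have hn : Tendsto (fun n : ℕ => ‖(n : ℝ) • u‖) atTop atTop := by
    simp only [norm_smul, Real.norm_natCast]
    exact tendsto_natCast_atTop_atTop.atTop_mul_const (norm_pos_iff.2 hu)
  have hne : ξ 0 ≠ ξ 1 := fun h' => zero_ne_one (hi h')
  have hcz : ContinuousAt (b 1) (ξ 0) := hc.continuousAt (isOpen_compl_singleton.mem_nhds hne)
  have h3 : Tendsto (fun n : ℕ => ‖b 1 (ai ((n : ℝ) • u))‖) atTop (𝓝 ‖b 1 (ξ 0)‖) :=
    (hcz.tendsto.comp (hinf _ hn)).norm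
  simp only [key] at h3
  exact not_tendsto_nhds_of_tendsto_atTop hn _ h3

/-- first order expansion of the difference of two solutions -/
theorem diff_expand {P : E →L[ℝ] E →L[ℝ] E} (hs : ∀ u v, P u v = P v u) {R t₀ : ℝ} (hR : 0 ≤ R)
    (ht₀ : 0 ≤ t₀) {x y : ℝ → E}
    (hx : ∀ t ∈ Icc (0 : ℝ) t₀, HasDerivAt x ((1 / 2 : ℝ) • P (x t) (x t)) t)
    (hy : ∀ t ∈ Icc (0 : ℝ) t₀, HasDerivAt y ((1 / 2 : ℝ) • P (y t) (y t)) t)
    (hxR : ∀ t ∈ Icc (0 : ℝ) t₀, ‖x t‖ ≤ R) (hyR : ∀ t ∈ Icc (0 : ℝ) t₀, ‖y t‖ ≤ R) :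
    ∀ t ∈ Icc (0 : ℝ) t₀, ‖(y t - x t) - (y 0 - x 0) - t • P (x 0) (y 0 - x 0)‖ ≤
      (2 * ‖P‖ ^ 2 * R ^ 2 * Real.exp (‖P‖ * R * t₀) * t +
        ‖P‖ * Real.exp (‖P‖ * R * t₀) ^ 2 * ‖y 0 - x 0‖) * ‖y 0 - x 0‖ * t := by
  set M := Real.exp (‖P‖ * R * t₀) with hM
  have hM1 : 1 ≤ M := Real.one_le_exp (by positivity)
  set d0 := y 0 - x 0 with hd0
  have hxc : ContinuousOn x (Icc 0 t₀) := fun s hs => (hx s hs).continuousAt.continuousWithinAt
  have hyc : ContinuousOn y (Icc 0 t₀) := fun s hs => (hy s hs).continuousAt.continuousWithinAt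
  -- Gronwall
  have hG : ∀ t ∈ Icc (0 : ℝ) t₀, ‖y t - x t‖ ≤ M * ‖d0‖ := by
    intro t ht
    have := dist_le_of_trajectories_ODE_of_mem (v := fun _ x => (1 / 2 : ℝ) • P x x)
      (s := fun _ => closedBall (0 : E) R) (K := ⟨‖P‖ * R, by positivity⟩) (f := y) (g := x)
      (a := 0) (b := t₀) (δ := ‖d0‖) (fun _ _ => hq_lip P hR) hyc
      (fun s hs => (hy s ⟨hs.1, hs.2.le⟩).hasDerivWithinAt)
      (fun s hs => mem_closedBall_zero_iff.2 (hyR s ⟨hs.1, hs.2.le⟩)) hxc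
      (fun s hs => (hx s ⟨hs.1, hs.2.le⟩).hasDerivWithinAt)
      (fun s hs => mem_closedBall_zero_iff.2 (hxR s ⟨hs.1, hs.2.le⟩))
      (by rw [dist_eq_norm]) t ht
    rw [dist_eq_norm] at this
    refine this.trans ?_
    rw [mul_comm, hM, sub_zero]
    exact mul_le_mul_of_nonneg_right
      (Real.exp_le_exp.2 (mul_le_mul_of_nonneg_left ht.2 (mul_nonneg (norm_nonneg P) hR)))
      (norm_nonneg d0)
  -- speed
  have hsp : ∀ t ∈ Icc (0 : ℝ) t₀, ‖x t - x 0‖ ≤ (1 / 2 * ‖P‖ * R ^ 2) * t := by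
    intro t ht
    have := norm_image_sub_le_of_norm_deriv_le_segment' (f := x)
      (f' := fun t => (1 / 2 : ℝ) • P (x t) (x t)) (a := 0) (b := t)
      (C := 1 / 2 * ‖P‖ * R ^ 2)
      (fun s hs => (hx s ⟨hs.1, hs.2.trans ht.2⟩).hasDerivWithinAt)
      (fun s hs => by
        rw [norm_smul, Real.norm_of_nonneg (by norm_num)]
        have h1 := P.le_opNorm₂ (x s) (x s)
        have h2 := hxR s ⟨hs.1, hs.2.le.trans ht.2⟩
        calc 1 / 2 * ‖P (x s) (x s)‖ ≤ 1 / 2 * (‖P‖ * R * R) := by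
              gcongr
              exact h1.trans (by gcongr)
          _ = _ := by ring) t (right_mem_Icc.2 ht.1)
    simpa using this
  have hder : ∀ t ∈ Icc (0 : ℝ) t₀, HasDerivAt (fun t => (y t - x t) - t • P (x 0) d0)
      (P ((1 / 2 : ℝ) • (x t + y t) - x 0) (y t - x t) + P (x 0) ((y t - x t) - d0)) t := by
    intro t ht
    have h := ((hy t ht).sub (hx t ht)).sub ((hasDerivAt_id t).smul_const (P (x 0) d0))
    refine h.congr_deriv ?_
    have e : P (x t) (y t) = P (y t) (x t) := hs _ _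
    simp only [map_sub, map_add, map_smul, sub_apply, add_apply, smul_apply, smul_add,
      one_smul, e]
    module
  -- difference of the increments
  have hd : ∀ t ∈ Icc (0 : ℝ) t₀, ‖(y t - x t) - d0‖ ≤ (‖P‖ * R * (M * ‖d0‖)) * t := by
    intro t ht
    have := norm_image_sub_le_of_norm_deriv_le_segment' (f := fun t => y t - x t)
      (f' := fun t => (1 / 2 : ℝ) • P (y t) (y t) - (1 / 2 : ℝ) • P (x t) (x t)) (a := 0) (b := t)
      (C := ‖P‖ * R * (M * ‖d0‖))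
      (fun s hs => ((hy s ⟨hs.1, hs.2.trans ht.2⟩).sub
        (hx s ⟨hs.1, hs.2.trans ht.2⟩)).hasDerivWithinAt)
      (fun s hs => by
        have hs' : s ∈ Icc (0 : ℝ) t₀ := ⟨hs.1, hs.2.le.trans ht.2⟩
        have h1 := (hq_lip P hR).dist_le_mul (y s) (mem_closedBall_zero_iff.2 (hyR s hs'))
          (x s) (mem_closedBall_zero_iff.2 (hxR s hs'))
        rw [dist_eq_norm, dist_eq_norm] at h1
        exact h1.trans (mul_le_mul_of_nonneg_left (hG s hs') (mul_nonneg (norm_nonneg P) hR)))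
        t (right_mem_Icc.2 ht.1)
    simpa using this
  intro t ht
  have hmain := norm_image_sub_le_of_norm_deriv_le_segment'
    (f := fun t => (y t - x t) - t • P (x 0) d0)
    (f' := fun t => P ((1 / 2 : ℝ) • (x t + y t) - x 0) (y t - x t) +
      P (x 0) ((y t - x t) - d0)) (a := 0) (b := t)
    (C := (2 * ‖P‖ ^ 2 * R ^ 2 * M * t + ‖P‖ * M ^ 2 * ‖d0‖) * ‖d0‖)
    (fun s hs => (hder s ⟨hs.1, hs.2.trans ht.2⟩).hasDerivWithinAt)
    (fun s hs => by
      have hs' : s ∈ Icc (0 : ℝ) t₀ := ⟨hs.1, hs.2.le.trans ht.2⟩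
      have hs0 : 0 ≤ s := hs.1
      have e1 : ‖(1 / 2 : ℝ) • (x s + y s) - x 0‖ ≤ 1 / 2 * ‖P‖ * R ^ 2 * s + M * ‖d0‖ := by
        have : (1 / 2 : ℝ) • (x s + y s) - x 0 = (x s - x 0) + (1 / 2 : ℝ) • (y s - x s) := by
          module
        rw [this]
        refine (norm_add_le _ _).trans (add_le_add (hsp s hs') ?_)
        rw [norm_smul, Real.norm_of_nonneg (by norm_num)]
        have := hG s hs'
        have h0 : 0 ≤ M * ‖d0‖ := by positivity
        linarith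
      have e2 : ‖P ((1 / 2 : ℝ) • (x s + y s) - x 0) (y s - x s)‖ ≤
          ‖P‖ * (1 / 2 * ‖P‖ * R ^ 2 * s + M * ‖d0‖) * (M * ‖d0‖) :=
        (P.le_opNorm₂ _ _).trans (by
          have := hG s hs'
          gcongr)
      have e3 : ‖P (x 0) ((y s - x s) - d0)‖ ≤ ‖P‖ * R * (‖P‖ * R * (M * ‖d0‖) * s) :=
        (P.le_opNorm₂ _ _).trans (by
          have h1 := hd s hs'
          have h2 := hxR 0 ⟨le_rfl, ht₀⟩
          gcongr)
      refine (norm_add_le _ _).trans ((add_le_add e2 e3).trans ?_)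
      have hst : s ≤ t := hs.2.le
      have : ‖P‖ * (1 / 2 * ‖P‖ * R ^ 2 * s + M * ‖d0‖) * (M * ‖d0‖) +
          ‖P‖ * R * (‖P‖ * R * (M * ‖d0‖) * s) =
          (3 / 2 * ‖P‖ ^ 2 * R ^ 2 * M * s + ‖P‖ * M ^ 2 * ‖d0‖) * ‖d0‖ := by ring
      rw [this]
      gcongr
      · norm_num)
    t (right_mem_Icc.2 ht.1)
  simp only [zero_smul, sub_zero] at hmain
  rw [← hd0] at hmain
  have e : (y t - x t) - t • P (x 0) d0 - d0 = (y t - x t) - d0 - t • P (x 0) d0 := by abel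
  rw [e] at hmain
  exact hmain

end Basic

section Local

variable {E : Type*} [NormedAddCommGroup E] [NormedSpace ℝ E]

/-- a priori bound for a short time -/
theorem apriori {P : E →L[ℝ] E →L[ℝ] E} {R₀ t₀ : ℝ} (hR : 0 ≤ R₀)
    (ht : t₀ * ((‖P‖ + 1) * (R₀ + 1) ^ 2) ≤ 1) {x : ℝ → E}
    (hx : ∀ t ∈ Icc (0 : ℝ) t₀, HasDerivAt x ((1 / 2 : ℝ) • P (x t) (x t)) t)
    (h0 : ‖x 0‖ ≤ R₀) : ∀ t ∈ Icc (0 : ℝ) t₀, ‖x t‖ ≤ R₀ + 1 := by
  set K := (‖P‖ + 1) * (R₀ + 1) ^ 2 with hK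
  have hK0 : 0 < K := by positivity
  have key := image_norm_le_of_norm_deriv_right_lt_deriv_boundary (f := x)
    (f' := fun t => (1 / 2 : ℝ) • P (x t) (x t)) (a := 0) (b := t₀)
    (fun s hs => (hx s hs).continuousAt.continuousWithinAt)
    (fun s hs => (hx s ⟨hs.1, hs.2.le⟩).hasDerivWithinAt)
    (B := fun t => R₀ + K * t) (B' := fun _ => K) (by simpa using h0)
    (fun t => by simpa using ((hasDerivAt_id t).const_mul K).const_add R₀)
    (fun s hs h => by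
      have h1 : ‖x s‖ ≤ R₀ + 1 := by
        have h' : ‖x s‖ = R₀ + K * s := h
        rw [h']
        have : K * s ≤ K * t₀ := mul_le_mul_of_nonneg_left hs.2.le hK0.le
        linarith
      have h2 := P.le_opNorm₂ (x s) (x s)
      change ‖(1 / 2 : ℝ) • P (x s) (x s)‖ < K
      rw [norm_smul, Real.norm_of_nonneg (by norm_num)]
      have h3 : ‖P‖ * ‖x s‖ * ‖x s‖ ≤ ‖P‖ * (R₀ + 1) * (R₀ + 1) := by gcongr
      have h4 : 0 ≤ ‖P‖ * (R₀ + 1) ^ 2 := by positivity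
      have h5 : 0 < (R₀ + 1) ^ 2 := by positivity
      have h6 : K = ‖P‖ * (R₀ + 1) ^ 2 + (R₀ + 1) ^ 2 := by rw [hK]; ring
      have h7 : ‖P‖ * (R₀ + 1) * (R₀ + 1) = ‖P‖ * (R₀ + 1) ^ 2 := by ring
      linarith)
  intro t htt
  refine (key htt).trans ?_
  have : K * t ≤ K * t₀ := mul_le_mul_of_nonneg_left htt.2 hK0.le
  linarith

/-- the spatial derivative of the flow for a short time -/
theorem fderiv_expand {B : Type*} [TopologicalSpace B] [T2Space B] {P : E →L[ℝ] E →L[ℝ] E}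
    (hs : ∀ u v, P u v = P v u) {ξ : ℝ → B} (hξ : Continuous ξ) {b : ℝ → B → E} {ai : E → B}
    (h1 : ∀ X, ai X ≠ ξ 0) (h2 : ∀ X, b 0 (ai X) = X) (hac : Continuous ai)
    (ode : ∀ t η, η ≠ ξ t → HasDerivAt (fun s => b s η) ((1 / 2 : ℝ) • P (b t η) (b t η)) t)
    (X : E) : ∃ t₀ > 0, ∃ C : ℝ, ∀ t ∈ Icc (0 : ℝ) t₀, ai X ≠ ξ t ∧
      ∀ A : E →L[ℝ] E, HasFDerivAt (fun X => b t (ai X)) A X →
        ∀ u, ‖A u - u - t • P X u‖ ≤ C * t ^ 2 * ‖u‖ := by
  -- separation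
  obtain ⟨U, V, hU, hV, hXU, hξV, hUV⟩ := t2_separation (h1 X)
  have hU' : ∀ᶠ Y in 𝓝 X, ai Y ∈ U := hac.continuousAt.eventually (hU.mem_nhds hXU)
  have hV' : ∀ᶠ t in 𝓝 (0 : ℝ), ξ t ∈ V := hξ.continuousAt.eventually (hV.mem_nhds hξV)
  obtain ⟨ε, hε, hεU⟩ := Metric.eventually_nhds_iff.1 hU'
  obtain ⟨δ, hδ, hδV⟩ := Metric.eventually_nhds_iff.1 hV'
  set R₀ := ‖X‖ + ε with hR₀
  have hR₀0 : 0 ≤ R₀ := by positivity
  set K := (‖P‖ + 1) * (R₀ + 1) ^ 2 with hK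
  have hK0 : 0 < K := by positivity
  refine ⟨min (δ / 2) (1 / K), by positivity,
    2 * ‖P‖ ^ 2 * (R₀ + 1) ^ 2 * Real.exp (‖P‖ * (R₀ + 1) * (min (δ / 2) (1 / K))), ?_⟩
  set t₀ := min (δ / 2) (1 / K) with ht₀
  have ht₀0 : 0 < t₀ := by positivity
  have hne : ∀ Y, dist Y X < ε → ∀ t ∈ Icc (0 : ℝ) t₀, ai Y ≠ ξ t := by
    intro Y hY t ht heq
    have hY' := hεU hY
    have ht' : ξ t ∈ V := hδV (by
      rw [Real.dist_eq, sub_zero, abs_of_nonneg ht.1]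
      have : t ≤ δ / 2 := ht.2.trans (min_le_left _ _)
      linarith)
    rw [heq] at hY'
    exact Set.disjoint_left.1 hUV hY' ht'
  have hsol : ∀ Y, dist Y X < ε → ∀ t ∈ Icc (0 : ℝ) t₀,
      HasDerivAt (fun s => b s (ai Y)) ((1 / 2 : ℝ) • P (b t (ai Y)) (b t (ai Y))) t :=
    fun Y hY t ht => ode t _ (hne Y hY t ht)
  have hbd : ∀ Y, dist Y X < ε → ∀ t ∈ Icc (0 : ℝ) t₀, ‖b t (ai Y)‖ ≤ R₀ + 1 := by
    intro Y hY
    refine apriori hR₀0 ?_ (hsol Y hY) ?_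
    · rw [← hK]
      have : t₀ ≤ 1 / K := min_le_right _ _
      calc t₀ * K ≤ 1 / K * K := by gcongr
        _ = 1 := by field_simp
    · rw [h2, hR₀]
      have : ‖Y‖ ≤ ‖X‖ + ‖Y - X‖ := by
        have := norm_add_le X (Y - X); rwa [add_sub_cancel] at this
      rw [dist_eq_norm] at hY
      linarith
  intro t ht
  refine ⟨hne X (by simpa using hε) t ht, fun A hA u => ?_⟩
  -- the difference quotients
  have hline : HasDerivAt (fun e : ℝ => b t (ai (X + e • u))) (A u) 0 := by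
    have hl : HasDerivAt (fun e : ℝ => X + e • u) u 0 := by
      simpa using ((hasDerivAt_id (0 : ℝ)).smul_const u).const_add X
    have hA' : HasFDerivAt (fun X => b t (ai X)) A (X + (0 : ℝ) • u) := by simpa using hA
    exact hA'.comp_hasDerivAt (0 : ℝ) hl
  have hlim : Tendsto (fun e : ℝ => e⁻¹ • (b t (ai (X + e • u)) - b t (ai X)) - u - t • P X u)
      (𝓝[>] 0) (𝓝 (A u - u - t • P X u)) := by
    have h := (hasDerivAt_iff_tendsto_slope.1 hline).mono_left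
      (nhdsWithin_mono 0 fun x (hx : 0 < x) => hx.ne')
    have h' : Tendsto (fun e : ℝ => e⁻¹ • (b t (ai (X + e • u)) - b t (ai X))) (𝓝[>] 0)
        (𝓝 (A u)) := by
      refine h.congr fun e => ?_
      simp [slope, vsub_eq_sub]
    exact (h'.sub_const u).sub_const _
  set M := Real.exp (‖P‖ * (R₀ + 1) * t₀) with hM
  have hbound : ∀ᶠ e in 𝓝[>] (0 : ℝ),
      ‖e⁻¹ • (b t (ai (X + e • u)) - b t (ai X)) - u - t • P X u‖ ≤
        (2 * ‖P‖ ^ 2 * (R₀ + 1) ^ 2 * M * t + ‖P‖ * M ^ 2 * (e * ‖u‖)) * ‖u‖ * t := by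
    have hsmall : ∀ᶠ e in 𝓝[>] (0 : ℝ), dist (X + e • u) X < ε := by
      have : Tendsto (fun e : ℝ => dist (X + e • u) X) (𝓝 0) (𝓝 0) := by
        have hc : Continuous fun e : ℝ => dist (X + e • u) X := by fun_prop
        simpa using hc.tendsto 0
      exact (this.eventually (gt_mem_nhds hε)).filter_mono nhdsWithin_le_nhds
    filter_upwards [hsmall, self_mem_nhdsWithin] with e he he0
    have he0 : 0 < e := he0
    have hexp := diff_expand hs (x := fun s => b s (ai X)) (y := fun s => b s (ai (X + e • u)))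
      (R := R₀ + 1) (t₀ := t₀) (by positivity) ht₀0.le (hsol X (by simpa using hε)) (hsol _ he)
      (hbd X (by simpa using hε)) (hbd _ he) t ht
    simp only [h2, add_sub_cancel_left, map_smul] at hexp
    rw [← hM, norm_smul, Real.norm_of_nonneg he0.le] at hexp
    have e1 : e⁻¹ • (b t (ai (X + e • u)) - b t (ai X)) - u - t • P X u
        = e⁻¹ • (b t (ai (X + e • u)) - b t (ai X) - e • u - t • e • P X u) := by
      have hu : e⁻¹ • e • u = u := by rw [smul_smul, inv_mul_cancel₀ he0.ne', one_smul]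
      have hp : e⁻¹ • t • e • P X u = t • P X u := by
        rw [smul_comm t e, smul_smul e⁻¹ e, inv_mul_cancel₀ he0.ne', one_smul]
      rw [smul_sub e⁻¹ (b t (ai (X + e • u)) - b t (ai X) - e • u) (t • e • P X u),
        smul_sub e⁻¹ (b t (ai (X + e • u)) - b t (ai X)) (e • u), hu, hp]
    rw [e1, norm_smul, norm_inv, Real.norm_of_nonneg he0.le, inv_mul_le_iff₀ he0]
    refine hexp.trans (le_of_eq ?_)
    ring
  have hlim2 : Tendsto (fun e : ℝ =>
      (2 * ‖P‖ ^ 2 * (R₀ + 1) ^ 2 * M * t + ‖P‖ * M ^ 2 * (e * ‖u‖)) * ‖u‖ * t) (𝓝[>] 0)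
      (𝓝 ((2 * ‖P‖ ^ 2 * (R₀ + 1) ^ 2 * M * t + ‖P‖ * M ^ 2 * (0 * ‖u‖)) * ‖u‖ * t)) := by
    have hc : Continuous fun e : ℝ =>
      (2 * ‖P‖ ^ 2 * (R₀ + 1) ^ 2 * M * t + ‖P‖ * M ^ 2 * (e * ‖u‖)) * ‖u‖ * t := by fun_prop
    exact (hc.tendsto 0).mono_left nhdsWithin_le_nhds
  have := le_of_tendsto_of_tendsto hlim.norm hlim2 hbound
  refine this.trans (le_of_eq ?_)
  ring

end Local

section CC

variable {E : Type*} [NormedAddCommGroup E] [InnerProductSpace ℝ E]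

/-- a one-sided curve of similarities through the identity has a derivative in `co` -/
theorem inf_sim {S : E ≃L[ℝ] E} {A : ℝ → E → E} {Y : E → E} (h0 : ∀ u, A 0 u = u)
    (hA : ∀ u, HasDerivWithinAt (fun t => A t u) (Y u) (Ioi 0) 0)
    (hsim : ∀ᶠ t in 𝓝[>] (0 : ℝ), ∃ k : ℝ, ∀ u, ‖S (A t u)‖ = k * ‖S u‖) (x z : E) :
    2 * ⟪S x, S (Y x)⟫ * ‖S z‖ ^ 2 = 2 * ⟪S z, S (Y z)⟫ * ‖S x‖ ^ 2 := by
  have hd : ∀ x, HasDerivWithinAt (fun t => ‖S (A t x)‖ ^ 2) (2 * ⟪S x, S (Y x)⟫) (Ioi 0) 0 := by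
    intro x
    have h1 : HasDerivWithinAt (fun t => S (A t x)) (S (Y x)) (Ioi 0) 0 :=
      (S : E →L[ℝ] E).hasFDerivAt.comp_hasDerivWithinAt 0 (hA x)
    have h2 := h1.norm_sq
    rwa [h0] at h2
  have e1 : HasDerivWithinAt (fun t => ‖S (A t x)‖ ^ 2 * ‖S z‖ ^ 2)
      (2 * ⟪S x, S (Y x)⟫ * ‖S z‖ ^ 2) (Ioi 0) 0 := (hd x).mul_const _
  have e2 : HasDerivWithinAt (fun t => ‖S (A t z)‖ ^ 2 * ‖S x‖ ^ 2)
      (2 * ⟪S z, S (Y z)⟫ * ‖S x‖ ^ 2) (Ioi 0) 0 := (hd z).mul_const _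
  have e3 : (fun t => ‖S (A t x)‖ ^ 2 * ‖S z‖ ^ 2) =ᶠ[𝓝[>] 0]
      fun t => ‖S (A t z)‖ ^ 2 * ‖S x‖ ^ 2 := by
    filter_upwards [hsim] with t ht
    obtain ⟨k, hk⟩ := ht
    rw [hk x, hk z]; ring
  have e4 := e2.congr_of_eventuallyEq e3 (by rw [h0, h0]; ring)
  exact (uniqueDiffWithinAt_Ioi 0).eq_deriv _ e1 e4

/-- polarisation -/
theorem polar_sim {S : E ≃L[ℝ] E} (Y : E →L[ℝ] E)
    (key : ∀ x z, 2 * ⟪S x, S (Y x)⟫ * ‖S z‖ ^ 2 = 2 * ⟪S z, S (Y z)⟫ * ‖S x‖ ^ 2) :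
    ∃ l : ℝ, ∀ y z, ⟪S (Y (S.symm y)), z⟫ + ⟪y, S (Y (S.symm z))⟫ = 2 * l * ⟪y, z⟫ := by
  have quad : ∃ l : ℝ, ∀ y, ⟪y, S (Y (S.symm y))⟫ = l * ‖y‖ ^ 2 := by
    rcases subsingleton_or_nontrivial E with hE | hE
    · exact ⟨0, fun y => by rw [Subsingleton.elim y 0]; simp⟩
    · obtain ⟨w, hw⟩ := exists_ne (0 : E)
      have hw2 : ‖w‖ ^ 2 ≠ 0 := pow_ne_zero 2 (norm_ne_zero_iff.2 hw)
      refine ⟨⟪w, S (Y (S.symm w))⟫ / ‖w‖ ^ 2, fun y => ?_⟩
      have := key (S.symm y) (S.symm w)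
      rw [S.apply_symm_apply, S.apply_symm_apply] at this
      field_simp
      linarith
  obtain ⟨l, hl⟩ := quad
  refine ⟨l, fun y z => ?_⟩
  have h1 := hl (y + z)
  have h2 := hl y
  have h3 := hl z
  rw [norm_add_sq_real] at h1
  simp only [map_add, inner_add_left, inner_add_right] at h1
  rw [real_inner_comm z (S (Y (S.symm y)))]
  linarith

variable [FiniteDimensional ℝ E] {B : Type*} [TopologicalSpace B] [T2Space B]

/-- the field is the standard conformal one in the normal form `S` -/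
theorem field_of_sim {P : E →L[ℝ] E →L[ℝ] E} (hs : ∀ u v, P u v = P v u) {ξ : ℝ → B}
    (hξ : Continuous ξ) {b : ℝ → B → E} {ai : E → B} (h1 : ∀ X, ai X ≠ ξ 0)
    (h2 : ∀ X, b 0 (ai X) = X) (hac : Continuous ai)
    (ode : ∀ t η, η ≠ ξ t → HasDerivAt (fun s => b s η) ((1 / 2 : ℝ) • P (b t η) (b t η)) t)
    {S : E ≃L[ℝ] E}
    (hd : ∀ t X, ai X ≠ ξ t → ∃ A : E →L[ℝ] E, HasFDerivAt (fun X => b t (ai X)) A X ∧
      ∃ l : ℝ, ∀ u, ‖S (A u)‖ = l * ‖S u‖) :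
    ∃ c : E, ∀ x, S ((1 / 2 : ℝ) • P x x) = qf c (S x) := by
  have hX : ∀ X : E, ∃ l : ℝ, ∀ y z,
      ⟪S (P X (S.symm y)), z⟫ + ⟪y, S (P X (S.symm z))⟫ = 2 * l * ⟪y, z⟫ := by
    intro X
    obtain ⟨t₀, ht₀, C, hC⟩ := fderiv_expand hs hξ h1 h2 hac ode X
    let A : ℝ → E → E := fun t u => fderiv ℝ (fun X => b t (ai X)) X u
    have hA : ∀ t ∈ Icc (0 : ℝ) t₀, ∀ u, ‖A t u - u - t • P X u‖ ≤ C * t ^ 2 * ‖u‖ := by
      intro t ht u
      obtain ⟨hne, hb⟩ := hC t ht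
      obtain ⟨D, hD, -⟩ := hd t X hne
      exact hb _ (by rw [hD.fderiv]; exact hD) u
    have hA0 : ∀ u, A 0 u = u := by
      intro u
      have := hA 0 ⟨le_rfl, ht₀.le⟩ u
      simp only [ne_eq, OfNat.ofNat_ne_zero, not_false_eq_true, zero_pow, mul_zero, zero_mul,
        zero_smul, sub_zero] at this
      exact sub_eq_zero.1 (norm_le_zero_iff.1 this)
    have hder : ∀ u, HasDerivWithinAt (fun t => A t u) (P X u) (Ioi 0) 0 := by
      intro u
      have hg : HasDerivWithinAt (fun t => A t u - u - t • P X u) 0 (Ioi 0) 0 := by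
        rw [hasDerivWithinAt_iff_isLittleO]
        simp only [hA0, zero_smul, sub_self, smul_zero, sub_zero]
        have hO : (fun t : ℝ => A t u - u - t • P X u) =O[𝓝[>] 0] fun t : ℝ => t ^ 2 := by
          refine Asymptotics.IsBigO.of_bound (C * ‖u‖) ?_
          filter_upwards [Ioo_mem_nhdsGT ht₀] with t ht
          refine (hA t ⟨ht.1.le, ht.2.le⟩ u).trans (le_of_eq ?_)
          rw [Real.norm_of_nonneg (by positivity)]; ring
        exact hO.trans_isLittleO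
          ((Asymptotics.isLittleO_pow_id one_lt_two).mono nhdsWithin_le_nhds)
      have h := (hg.add_const u).add ((hasDerivWithinAt_id (0 : ℝ) (Ioi 0)).smul_const (P X u))
      refine (h.congr_deriv (by simp)).congr_of_eventuallyEq ?_ ?_
      · filter_upwards with t
        simp only [Pi.add_apply, id]
        abel
      · simp [hA0]
    have hsim : ∀ᶠ t in 𝓝[>] (0 : ℝ), ∃ k : ℝ, ∀ u, ‖S (A t u)‖ = k * ‖S u‖ := by
      filter_upwards [Ioo_mem_nhdsGT ht₀] with t ht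
      obtain ⟨D, hD, l, hl⟩ := hd t X (hC t ⟨ht.1.le, ht.2.le⟩).1
      refine ⟨l, fun u => ?_⟩
      simp only [A, hD.fderiv]
      exact hl u
    exact polar_sim (P X) (inf_sim hA0 hder hsim)
  let Bq : E →L[ℝ] E →L[ℝ] E := LinearMap.toContinuousLinearMap
    { toFun := fun z => (S : E →L[ℝ] E).comp
        (((1 / 2 : ℝ) • P (S.symm z)).comp (S.symm : E →L[ℝ] E))
      map_add' := fun x y => by ext u; simp
      map_smul' := fun r x => by ext u; simp; exact smul_comm _ _ _ }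
  have hBq : ∀ z z', Bq z z' = S ((1 / 2 : ℝ) • P (S.symm z) (S.symm z')) := fun z z' => rfl
  obtain ⟨c, hc⟩ := quad_conf Bq (fun z z' => by rw [hBq, hBq, hs]) (by
    intro z
    obtain ⟨l, hl⟩ := hX (S.symm z)
    refine ⟨l / 2, fun y' z' => ?_⟩
    have h := hl y' z'
    rw [hBq, hBq, map_smul, map_smul, inner_smul_left, inner_smul_right, conj_trivial]
    linarith)
  refine ⟨c, fun x => ?_⟩
  have h := hc (S x) (S x)
  rw [hBq] at h
  simp only [ContinuousLinearEquiv.symm_apply_apply] at h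
  rw [h, qf, real_inner_self_eq_norm_sq, two_mul, add_smul]

/-- (C) the conformal factor of the transition map -/
theorem curve_conf_gen (hE : 1 < finrank ℝ E) {P : E →L[ℝ] E →L[ℝ] E}
    (hs : ∀ u v, P u v = P v u) {ξ : ℝ → B} (hξ : Continuous ξ) (hi : Function.Injective ξ)
    {b : ℝ → B → E} {ai : E → B} (h1 : ∀ X, ai X ≠ ξ 0) (h2 : ∀ X, b 0 (ai X) = X)
    (h3 : ∀ η, η ≠ ξ 0 → ai (b 0 η) = η) (hac : Continuous ai)
    (ode : ∀ t η, η ≠ ξ t → HasDerivAt (fun s => b s η) ((1 / 2 : ℝ) • P (b t η) (b t η)) t)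
    (blow : ∀ t, Tendsto (fun s => ‖b s (ξ t)‖) (𝓝[≠] t) atTop) {S : E ≃L[ℝ] E}
    (hd : ∀ t X, ai X ≠ ξ t → ∃ A : E →L[ℝ] E, HasFDerivAt (fun X => b t (ai X)) A X ∧
      ∃ l : ℝ, ∀ u, ‖S (A u)‖ = l * ‖S u‖) (hnd : ∃ u, P u u ≠ 0) :
    ∃ c > 0, ∀ X, ai X ≠ ξ 1 → ∀ u,
      ‖S (fderiv ℝ (fun X => b 1 (ai X)) X u)‖ =
        c / ‖S X - S (b 0 (ξ 1))‖ ^ 2 * ‖S u‖ := by
  obtain ⟨c, hc⟩ := field_of_sim hs hξ h1 h2 hac ode hd
  have hc0 : c ≠ 0 := by
    rintro rfl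
    obtain ⟨u, hu⟩ := hnd
    have h := hc u
    have h0 : qf (0 : E) (S u) = 0 := by simp [qf]
    rw [h0] at h
    have h3 : (1 / 2 : ℝ) • P u u = 0 := by rw [← S.map_eq_zero_iff]; exact h
    exact hu ((smul_eq_zero.1 h3).resolve_left (by norm_num))
  -- flow
  have flow : ∀ (η : B) (T : ℝ), 0 ≤ T → (∀ t ∈ Icc (0 : ℝ) T, η ≠ ξ t) →
      S (b T η) = flw c T (S (b 0 η)) := by
    intro η T hT hη
    exact (flow_conf (c := c) (T := T) (x := fun t => S (b t η)) (fun t ht => by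
      have h1 := (S : E →L[ℝ] E).hasFDerivAt.comp_hasDerivAt t (ode t η (hη t ht))
      have h2 : (S : E →L[ℝ] E) ((1 / 2 : ℝ) • P (b t η) (b t η)) = qf c (S (b t η)) := hc _
      rw [h2] at h1
      exact h1) (right_mem_Icc.2 hT)).2
  -- pole
  have pole : ∀ t : ℝ, 0 < t → den c t (S (b 0 (ξ t))) = 0 := by
    intro t ht
    by_contra hne
    set z := S (b 0 (ξ t)) with hz
    have h1 : ∀ T ∈ Ico (0 : ℝ) t, S (b T (ξ t)) = flw c T z := by
      intro T hT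
      refine flow (ξ t) T hT.1 fun s hs h => ?_
      exact (hs.2.trans_lt hT.2).ne' (hi h)
    have hcont : ContinuousAt (fun T => ‖flw c T z‖) t := by
      have hd : ContinuousAt (fun T => den c T z) t := by unfold den; fun_prop
      have : ContinuousAt (fun T => (den c T z)⁻¹ • (z - (T * ‖z‖ ^ 2) • c)) t :=
        (hd.inv₀ hne).smul (by fun_prop)
      exact this.norm
    have h2 : Tendsto (fun T => ‖flw c T z‖) (𝓝[<] t) (𝓝 ‖flw c t z‖) :=
      hcont.tendsto.mono_left nhdsWithin_le_nhds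
    have hb : Tendsto (fun τ => ‖S (b τ (ξ t))‖) (𝓝[<] t) atTop := by
      have hK : 0 < (‖(S.symm : E →L[ℝ] E)‖ + 1)⁻¹ := by positivity
      have hbl := (blow t).mono_left (nhdsWithin_mono t fun x (hx : x < t) => hx.ne)
      refine tendsto_atTop_mono (fun τ => ?_) (hbl.const_mul_atTop hK)
      set x := b τ (ξ t)
      have h1 : ‖x‖ ≤ ‖(S.symm : E →L[ℝ] E)‖ * ‖S x‖ := by
        have := (S.symm : E →L[ℝ] E).le_opNorm (S x)
        rwa [ContinuousLinearEquiv.coe_coe, ContinuousLinearEquiv.symm_apply_apply] at this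
      rw [inv_mul_le_iff₀ (by positivity)]
      nlinarith [norm_nonneg (S x)]
    have h3 : Tendsto (fun T => ‖flw c T z‖) (𝓝[<] t) atTop := by
      refine hb.congr' ?_
      filter_upwards [Ioo_mem_nhdsLT ht] with T hT
      rw [h1 T ⟨hT.1.le, hT.2⟩]
    exact not_tendsto_nhds_of_tendsto_atTop h3 _ h2
  have hcn : ‖c‖ ^ 2 ≠ 0 := pow_ne_zero 2 (norm_ne_zero_iff.2 hc0)
  have pole1 : S (b 0 (ξ 1)) = (‖c‖ ^ 2)⁻¹ • c := by
    have h := pole 1 one_pos
    rw [den_eq_pole hc0 one_ne_zero] at h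
    have h' : ‖S (b 0 (ξ 1)) - (1 * ‖c‖ ^ 2)⁻¹ • c‖ ^ 2 = 0 := by
      rcases mul_eq_zero.1 h with h | h
      · exact absurd h (mul_ne_zero (by norm_num) hcn)
      · exact h
    rw [one_mul] at h'
    exact sub_eq_zero.1 (norm_eq_zero.1 (pow_eq_zero_iff (two_ne_zero) |>.1 h'))
  -- off the line
  have off : ∀ X, S X ∉ Submodule.span ℝ {c} → S (b 1 (ai X)) = flw c 1 (S X) := by
    intro X hX
    have := flow (ai X) 1 zero_le_one fun t ht heq => ?_
    · rwa [h2] at this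
    · rcases eq_or_lt_of_le ht.1 with h | h
      · rw [← h] at heq; exact h1 X heq
      · have hp := pole t h
        rw [← heq, h2, den_eq_pole hc0 h.ne'] at hp
        have h' : ‖S X - (t * ‖c‖ ^ 2)⁻¹ • c‖ ^ 2 = 0 := by
          rcases mul_eq_zero.1 hp with h'' | h''
          · exact absurd h'' (mul_ne_zero (pow_ne_zero 2 h.ne') hcn)
          · exact h''
        have h'' := sub_eq_zero.1 (norm_eq_zero.1 (pow_eq_zero_iff (two_ne_zero) |>.1 h'))
        exact hX (h'' ▸ Submodule.smul_mem _ _ (Submodule.mem_span_singleton_self c))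
  -- density
  have dens : Dense {X : E | S X ∉ Submodule.span ℝ {c}} := by
    let V : Submodule ℝ E := (Submodule.span ℝ {c}).comap (S : E →L[ℝ] E).toLinearMap
    have hV : V ≠ ⊤ := by
      intro h
      have h4 : Submodule.span ℝ {c} = ⊤ := by
        rw [eq_top_iff]
        intro x _
        have : S.symm x ∈ V := h ▸ Submodule.mem_top
        have h5 : S (S.symm x) ∈ Submodule.span ℝ {c} := this
        rwa [S.apply_symm_apply] at h5
      have h5 := finrank_span_le_card (R := ℝ) ({c} : Set E)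
      rw [h4, finrank_top] at h5
      simp only [Set.toFinset_singleton, Finset.card_singleton] at h5
      omega
    have h6 : interior (V : Set E) = ∅ := by
      by_contra h
      exact hV (V.eq_top_of_nonempty_interior' (nonempty_iff_ne_empty.2 h))
    exact interior_eq_empty_iff_dense_compl.1 h6
  have hopen : IsOpen {X : E | ai X ≠ ξ 1} :=
    (isOpen_compl_singleton (x := ξ 1)).preimage hac
  have hdenX : ∀ X, ai X ≠ ξ 1 → den c 1 (S X) ≠ 0 := by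
    intro X hX h
    rw [den_eq_pole hc0 one_ne_zero] at h
    have h' : ‖S X - (1 * ‖c‖ ^ 2)⁻¹ • c‖ ^ 2 = 0 := by
      rcases mul_eq_zero.1 h with h | h
      · exact absurd h (mul_ne_zero (by norm_num) hcn)
      · exact h
    rw [one_mul] at h'
    have h'' := sub_eq_zero.1 (norm_eq_zero.1 (pow_eq_zero_iff (two_ne_zero) |>.1 h'))
    rw [← pole1] at h''
    have h7 : X = b 0 (ξ 1) := S.injective h''
    exact hX (by rw [h7]; exact h3 _ (fun h8 => one_ne_zero (hi h8)))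
  have heq : ∀ X, ai X ≠ ξ 1 → b 1 (ai X) = S.symm (flw c 1 (S X)) := by
    intro X hX
    rw [← S.injective.eq_iff, S.apply_symm_apply]
    obtain ⟨A, hA, -⟩ := hd 1 X hX
    have hc1 : ContinuousAt (fun X => S (b 1 (ai X))) X :=
      S.continuous.continuousAt.comp hA.continuousAt
    have hc2 : ContinuousAt (fun X => flw c 1 (S X)) X :=
      ContinuousAt.comp (g := flw c 1) (hasFDerivAt_flw (hdenX X hX)).continuousAt
        S.continuous.continuousAt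
    have hne : (𝓝[{X : E | S X ∉ Submodule.span ℝ {c}}] X).NeBot :=
      mem_closure_iff_nhdsWithin_neBot.1 (dens X)
    refine tendsto_nhds_unique_of_eventuallyEq (hc1.tendsto.mono_left nhdsWithin_le_nhds)
      (hc2.tendsto.mono_left nhdsWithin_le_nhds) (f := fun X => S (b 1 (ai X)))
      (l := 𝓝[{X : E | S X ∉ Submodule.span ℝ {c}}] X) ?_
    filter_upwards [self_mem_nhdsWithin] with Y hY using off Y hY
  refine ⟨(‖c‖ ^ 2)⁻¹, by positivity, fun X hX u => ?_⟩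
  have hF : HasFDerivAt (fun X => b 1 (ai X))
      ((S.symm : E →L[ℝ] E).comp ((dflw c 1 (S X)).comp (S : E →L[ℝ] E))) X := by
    have h4 : HasFDerivAt (fun X => S.symm (flw c 1 (S X)))
        ((S.symm : E →L[ℝ] E).comp ((dflw c 1 (S X)).comp (S : E →L[ℝ] E))) X :=
      (S.symm : E →L[ℝ] E).hasFDerivAt.comp X
        ((hasFDerivAt_flw (hdenX X hX)).comp X (S : E →L[ℝ] E).hasFDerivAt)
    refine h4.congr_of_eventuallyEq ?_
    filter_upwards [hopen.mem_nhds hX] with Y hY using heq Y hY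
  rw [hF.fderiv]
  have e : S (((S.symm : E →L[ℝ] E).comp ((dflw c 1 (S X)).comp (S : E →L[ℝ] E))) u)
      = dflw c 1 (S X) (S u) := by
    change S (S.symm (dflw c 1 (S X) (S u))) = _
    rw [S.apply_symm_apply]
  rw [e, norm_dflw (hdenX X hX), den_eq_pole hc0 one_ne_zero, one_pow, one_mul, pole1]
  congr 1
  rw [mul_inv, div_eq_mul_inv]

end CC

/-- (C), the literal form -/
theorem curve_conf {m : ℕ} (hm : 2 ≤ m) {B : Type*} [TopologicalSpace B] [T2Space B]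
    {P : Eu m →L[ℝ] Eu m →L[ℝ] Eu m}
    (hs : ∀ u v, P u v = P v u) {ξ : ℝ → B} (hξ : Continuous ξ) (hi : Function.Injective ξ)
    {b : ℝ → B → Eu m} {ai : Eu m → B} (h1 : ∀ X, ai X ≠ ξ 0) (h2 : ∀ X, b 0 (ai X) = X)
    (h3 : ∀ η, η ≠ ξ 0 → ai (b 0 η) = η) (hac : Continuous ai)
    (ode : ∀ t η, η ≠ ξ t → HasDerivAt (fun s => b s η) ((1 / 2 : ℝ) • P (b t η) (b t η)) t)
    (blow : ∀ t, Tendsto (fun s => ‖b s (ξ t)‖) (𝓝[≠] t) atTop) {S : Eu m ≃L[ℝ] Eu m}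
    (hd : ∀ t X, ai X ≠ ξ t → ∃ A : Eu m →L[ℝ] Eu m, HasFDerivAt (fun X => b t (ai X)) A X ∧
      ∃ l : ℝ, ∀ u, ‖S (A u)‖ = l * ‖S u‖) (hnd : ∃ u, P u u ≠ 0) :
    ∃ c > 0, ∀ X, ai X ≠ ξ 1 → ∀ u,
      ‖S (fderiv ℝ (fun X => b 1 (ai X)) X u)‖ =
        c / ‖S X - S (b 0 (ξ 1))‖ ^ 2 * ‖S u‖ :=
  curve_conf_gen (by rw [finrank_euclideanSpace_fin]; omega) hs hξ hi h1 h2 h3 hac ode blow hd hnd

end Vale.Agent.P207.H799
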