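import Vale.Agent.P207.H799.Conf

/-!
# P207, all dimensions: the canonical conformal structure of a positive homogeneous function

For `ρ : ℝᵐ → ℝ` continuous, positive off `0` and homogeneous of degree `2 m` the moments
`∫ ⟪a, u⟫ ⟪b, u⟫ max 0 (1 - ρ u) du` define an inner product; it is equivariant, up to the factor
`|det A|^(-2/m)`, under the linear maps with `ρ' (A u) = |det A|² ρ u`.
-/

open Set Filter Topology Metric MeasureTheory Module
open scoped ContDiff RealInnerProductSpace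

noncomputable section

namespace Vale.Agent.P207.H799

section Factor

/-- A positive definite form on a finite dimensional space is isometric to the standard one. -/
theorem exists_factor_gen {V : Type*} [AddCommGroup V] [Module ℝ V] [FiniteDimensional ℝ V]
    (g : V →ₗ[ℝ] V →ₗ[ℝ] ℝ) (hs : ∀ a b, g a b = g b a) (hp : ∀ a, a ≠ 0 → 0 < g a a) :
    ∃ B : V ≃ₗ[ℝ] EuclideanSpace ℝ (Fin (finrank ℝ V)), ∀ a b, g a b = ⟪B a, B b⟫ := by
  have hn : ∀ a, 0 ≤ g a a := by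
    intro a
    rcases eq_or_ne a 0 with rfl | ha
    · simp
    · exact (hp a ha).le
  let core : InnerProductSpace.Core ℝ V :=
    { inner := fun a b => g a b
      conj_inner_symm := fun a b => by
        change (starRingEnd ℝ) (g b a) = g a b
        rw [conj_trivial, hs]
      re_inner_nonneg := fun a => hn a
      add_left := fun a b c => by
        change g (a + b) c = g a c + g b c
        simp
      smul_left := fun a b r => by
        change g (r • a) b = _ * g a b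
        simp
      definite := fun a h => by
        by_contra ha
        exact (hp a ha).ne' h }
  let n1 : NormedAddCommGroup V := core.toNormedAddCommGroup
  let n2 : InnerProductSpace ℝ V := InnerProductSpace.ofCore core.toCore
  let b := stdOrthonormalBasis ℝ V
  refine ⟨b.repr.toLinearEquiv, fun x y => ?_⟩
  exact (b.repr.inner_map_map x y).symm

theorem exists_factor {m : ℕ} (g : EuclideanSpace ℝ (Fin m) →ₗ[ℝ] EuclideanSpace ℝ (Fin m) →ₗ[ℝ] ℝ)
    (hs : ∀ a b, g a b = g b a) (hp : ∀ a, a ≠ 0 → 0 < g a a) :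
    ∃ B : EuclideanSpace ℝ (Fin m) ≃L[ℝ] EuclideanSpace ℝ (Fin m),
      ∀ a b, g a b = ⟪B a, B b⟫ := by
  obtain ⟨B, hB⟩ := exists_factor_gen g hs hp
  have hf : finrank ℝ (EuclideanSpace ℝ (Fin m)) = m := finrank_euclideanSpace_fin
  let e : EuclideanSpace ℝ (Fin (finrank ℝ (EuclideanSpace ℝ (Fin m)))) ≃ₗᵢ[ℝ]
      EuclideanSpace ℝ (Fin m) :=
    LinearIsometryEquiv.piLpCongrLeft 2 ℝ ℝ (finCongr hf)
  refine ⟨(B.trans e.toLinearEquiv).toContinuousLinearEquiv, fun a b => ?_⟩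
  rw [hB a b]
  exact (e.inner_map_map (B a) (B b)).symm

end Factor

section Mom

variable {m : ℕ}

/-- `ρ` is continuous, positive off `0`, homogeneous of degree `2 m`. -/
structure Pos2 (m : ℕ) (ρ : Eu m → ℝ) : Prop where
  cont : Continuous ρ
  hom : ∀ (s : ℝ) u, ρ (s • u) = |s| ^ (2 * m) * ρ u
  pos : ∀ u, u ≠ 0 → 0 < ρ u

namespace Pos2

variable {ρ ρ' : Eu m → ℝ}

theorem zero (h : Pos2 m ρ) (hm : 0 < m) : ρ 0 = 0 := by
  have := h.hom 0 0
  rw [zero_smul, abs_zero, zero_pow (by omega), zero_mul] at this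
  exact this

theorem nonneg (h : Pos2 m ρ) (hm : 0 < m) (u : Eu m) : 0 ≤ ρ u := by
  rcases eq_or_ne u 0 with rfl | hu
  · rw [h.zero hm]
  · exact (h.pos u hu).le

theorem lower (h : Pos2 m ρ) (hm : 0 < m) : ∃ c > 0, ∀ u, c * ‖u‖ ^ (2 * m) ≤ ρ u := by
  have _ : Nonempty (Fin m) := ⟨⟨0, hm⟩⟩
  obtain ⟨z, hz, hmin⟩ := (isCompact_sphere (0 : Eu m) 1).exists_isMinOn
    (NormedSpace.sphere_nonempty.2 zero_le_one) h.cont.continuousOn
  have hz1 : ‖z‖ = 1 := mem_sphere_zero_iff_norm.1 hz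
  refine ⟨ρ z, h.pos z (by rintro rfl; simp at hz1), fun u => ?_⟩
  rcases eq_or_ne u 0 with rfl | hu
  · rw [norm_zero, zero_pow (by omega), mul_zero, h.zero hm]
  · have hu' : ‖u‖ ≠ 0 := norm_ne_zero_iff.2 hu
    have h1 : ρ z ≤ ρ (‖u‖⁻¹ • u) := hmin (by
      rw [mem_sphere_zero_iff_norm, norm_smul, norm_inv, norm_norm, inv_mul_cancel₀ hu'])
    rw [h.hom, abs_inv, abs_norm, inv_pow] at h1
    calc ρ z * ‖u‖ ^ (2 * m) ≤ ((‖u‖ ^ (2 * m))⁻¹ * ρ u) * ‖u‖ ^ (2 * m) := by gcongr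
      _ = ρ u := by field_simp

end Pos2

/-- the weight -/
def wt (ρ : Eu m → ℝ) (u : Eu m) : ℝ := max 0 (1 - ρ u)

/-- the second moments -/
def momf (ρ : Eu m → ℝ) (a b : Eu m) : ℝ := ∫ u, ⟪a, u⟫ * ⟪b, u⟫ * wt ρ u

variable {ρ ρ' : Eu m → ℝ}

theorem wt_nonneg (u : Eu m) : 0 ≤ wt ρ u := le_max_left _ _

theorem wt_cont (h : Pos2 m ρ) : Continuous (wt ρ) :=
  continuous_const.max (continuous_const.sub h.cont)

theorem wt_supp (h : Pos2 m ρ) (hm : 0 < m) : HasCompactSupport (wt ρ) := by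
  obtain ⟨c, hc, hcu⟩ := h.lower hm
  refine HasCompactSupport.of_support_subset_isCompact
    (isCompact_closedBall (0 : Eu m) (max 1 (1 / c))) fun u hu => ?_
  rw [mem_closedBall_zero_iff]
  by_contra hlt
  push Not at hlt
  have h1 : 1 < ‖u‖ := (le_max_left _ _).trans_lt hlt
  have h2 : 1 / c < ‖u‖ := (le_max_right _ _).trans_lt hlt
  have h3 : ‖u‖ ≤ ‖u‖ ^ (2 * m) := le_self_pow₀ h1.le (by omega)
  have h4 : 1 < ρ u := by
    calc (1 : ℝ) = c * (1 / c) := by field_simp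
      _ < c * ‖u‖ := by gcongr
      _ ≤ c * ‖u‖ ^ (2 * m) := by gcongr
      _ ≤ ρ u := hcu u
  apply hu
  rw [wt, max_eq_left]
  linarith

theorem mom_integrable (h : Pos2 m ρ) (hm : 0 < m) (a b : Eu m) :
    Integrable fun u => ⟪a, u⟫ * ⟪b, u⟫ * wt ρ u := by
  refine Continuous.integrable_of_hasCompactSupport ?_ ((wt_supp h hm).mul_left)
  exact ((continuous_const.inner continuous_id).mul (continuous_const.inner continuous_id)).mul
    (wt_cont h)

/-- the second moments as a bilinear form -/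
def mom (h : Pos2 m ρ) (hm : 0 < m) : Eu m →ₗ[ℝ] Eu m →ₗ[ℝ] ℝ :=
  LinearMap.mk₂ ℝ (momf ρ)
    (fun a b c => by
      simp only [momf]
      rw [← integral_add (mom_integrable h hm a c) (mom_integrable h hm b c)]
      exact integral_congr_ae (ae_of_all _ fun u => by simp only [inner_add_left]; ring))
    (fun r a b => by
      simp only [momf, smul_eq_mul]
      rw [← integral_const_mul]
      exact integral_congr_ae (ae_of_all _ fun u => by
        simp only [inner_smul_left, conj_trivial]; ring))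
    (fun a b c => by
      simp only [momf]
      rw [← integral_add (mom_integrable h hm a b) (mom_integrable h hm a c)]
      exact integral_congr_ae (ae_of_all _ fun u => by simp only [inner_add_left]; ring))
    (fun r a b => by
      simp only [momf, smul_eq_mul]
      rw [← integral_const_mul]
      exact integral_congr_ae (ae_of_all _ fun u => by
        simp only [inner_smul_left, conj_trivial]; ring))

theorem mom_apply (h : Pos2 m ρ) (hm : 0 < m) (a b : Eu m) : mom h hm a b = momf ρ a b := rfl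

theorem momf_symm (ρ : Eu m → ℝ) (a b : Eu m) : momf ρ a b = momf ρ b a := by
  simp only [momf]
  exact integral_congr_ae (ae_of_all _ fun u => by ring)

theorem momf_pos (h : Pos2 m ρ) (hm : 0 < m) {a : Eu m} (ha : a ≠ 0) : 0 < momf ρ a a := by
  -- a point of the support
  have h0 : Tendsto (fun t : ℝ => ρ (t • a)) (𝓝 0) (𝓝 0) := by
    have : Continuous fun t : ℝ => ρ (t • a) := h.cont.comp (continuous_id.smul continuous_const)
    have h1 := this.tendsto 0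
    simpa [h.zero hm] using h1
  have h1 : ∀ᶠ t : ℝ in 𝓝[>] 0, ρ (t • a) < 1 :=
    (h0.eventually (gt_mem_nhds one_pos)).filter_mono nhdsWithin_le_nhds
  obtain ⟨t, ht1, ht0⟩ := (h1.and self_mem_nhdsWithin).exists
  have ht0 : 0 < t := ht0
  refine Continuous.integral_pos_of_hasCompactSupport_nonneg_nonzero (x := t • a) ?_
    ((wt_supp h hm).mul_left) ?_ ?_
  · exact ((continuous_const.inner continuous_id).mul (continuous_const.inner continuous_id)).mul
      (wt_cont h)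
  · intro u
    exact mul_nonneg (mul_self_nonneg _) (wt_nonneg u)
  · have ha2 : 0 < ⟪a, a⟫ := by
      rw [real_inner_self_eq_norm_sq]; exact pow_pos (norm_pos_iff.2 ha) 2
    have hw : 0 < wt ρ (t • a) := by
      rw [wt, max_eq_right (by linarith)]; linarith
    rw [inner_smul_right]
    positivity

/-- linear change of variables -/
theorem integral_comp_lin (L : Eu m ≃L[ℝ] Eu m) (g : Eu m → ℝ) :
    ∫ u, g (L u) = |(L : Eu m →L[ℝ] Eu m).det|⁻¹ * ∫ u, g u := by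
  have hdet : LinearMap.det ((L : Eu m →L[ℝ] Eu m) : Eu m →ₗ[ℝ] Eu m) ≠ 0 :=
    (LinearEquiv.isUnit_det' L.toLinearEquiv).ne_zero
  have h1 := Measure.map_linearMap_addHaar_eq_smul_addHaar (volume : Measure (Eu m)) hdet
  have h2 : ∫ u, g (L u) = ∫ w, g w ∂(Measure.map L volume) :=
    (L.toHomeomorph.measurableEmbedding.integral_map g).symm
  rw [h2]
  have h3 : Measure.map L volume = Measure.map ((L : Eu m →L[ℝ] Eu m) : Eu m →ₗ[ℝ] Eu m) volume :=
    rfl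
  rw [h3, h1, integral_smul_measure, ENNReal.toReal_ofReal (abs_nonneg _), abs_inv, smul_eq_mul]

/-- the equivariance of the moments -/
theorem momf_equiv (h' : Pos2 m ρ') (A : Eu m ≃L[ℝ] Eu m)
    (hA : ∀ u, ρ' (A u) = |(A : Eu m →L[ℝ] Eu m).det| ^ 2 * ρ u) {s : ℝ} (hs : 0 < s)
    (hsA : s ^ m * |(A : Eu m →L[ℝ] Eu m).det| = 1) (a b : Eu m) :
    momf ρ' a b = s ^ 2 * momf ρ (ContinuousLinearMap.adjoint (A : Eu m →L[ℝ] Eu m) a)
      (ContinuousLinearMap.adjoint (A : Eu m →L[ℝ] Eu m) b) := by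
  let L : Eu m ≃L[ℝ] Eu m := A.trans (ContinuousLinearEquiv.smulLeft (Units.mk0 s hs.ne'))
  have hL : ∀ u, L u = s • A u := fun u => rfl
  have hdet : |(L : Eu m →L[ℝ] Eu m).det| = 1 := by
    have e : (L : Eu m →L[ℝ] Eu m) = s • (A : Eu m →L[ℝ] Eu m) := by ext u; rfl
    have e2 : (s • (A : Eu m →L[ℝ] Eu m)).det = s ^ m * (A : Eu m →L[ℝ] Eu m).det := by
      have := LinearMap.det_smul s (((A : Eu m →L[ℝ] Eu m)) : Eu m →ₗ[ℝ] Eu m)
      rw [finrank_euclideanSpace_fin] at this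
      exact this
    rw [e, e2, abs_mul, abs_of_pos (pow_pos hs m), hsA]
  have h1 := integral_comp_lin L (fun u => ⟪a, u⟫ * ⟪b, u⟫ * wt ρ' u)
  rw [hdet, inv_one, one_mul] at h1
  rw [momf, ← h1, momf, ← integral_const_mul]
  refine integral_congr_ae (ae_of_all _ fun u => ?_)
  simp only [hL]
  have hρ : ρ' (s • A u) = ρ u := by
    rw [h'.hom, hA, ← mul_assoc, abs_of_pos hs]
    have : s ^ (2 * m) * |(A : Eu m →L[ℝ] Eu m).det| ^ 2
        = (s ^ m * |(A : Eu m →L[ℝ] Eu m).det|) ^ 2 := by ring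
    rw [this, hsA, one_pow, one_mul]
  rw [wt, wt, hρ, inner_smul_right, inner_smul_right, ContinuousLinearMap.adjoint_inner_left,
    ContinuousLinearMap.adjoint_inner_left]
  simp only [ContinuousLinearEquiv.coe_coe]
  ring

end Mom

section Canon

variable {m : ℕ}

/-- the inverse adjoint of a linear isomorphism -/
def invAdj (B : Eu m ≃L[ℝ] Eu m) : Eu m ≃L[ℝ] Eu m :=
  ContinuousLinearEquiv.equivOfInverse
    (ContinuousLinearMap.adjoint (B.symm : Eu m →L[ℝ] Eu m))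
    (ContinuousLinearMap.adjoint (B : Eu m →L[ℝ] Eu m))
    (fun x => by
      refine ext_inner_left ℝ fun v => ?_
      rw [ContinuousLinearMap.adjoint_inner_right, ContinuousLinearMap.adjoint_inner_right]
      simp)
    (fun x => by
      refine ext_inner_left ℝ fun v => ?_
      rw [ContinuousLinearMap.adjoint_inner_right, ContinuousLinearMap.adjoint_inner_right]
      simp)

theorem inner_invAdj (B : Eu m ≃L[ℝ] Eu m) (x y : Eu m) : ⟪y, invAdj B x⟫ = ⟪B.symm y, x⟫ :=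
  ContinuousLinearMap.adjoint_inner_right _ _ _

/-- A map `A` whose dual is a similarity for `B`, `B'` is a similarity for the inverse adjoints. -/
theorem invAdj_sim {B B' A : Eu m ≃L[ℝ] Eu m} {s : ℝ} (hs : 0 < s)
    (h : ∀ y, ‖B' y‖ = s * ‖B (ContinuousLinearMap.adjoint (A : Eu m →L[ℝ] Eu m) y)‖) (x : Eu m) :
    ‖invAdj B' (A x)‖ = s⁻¹ * ‖invAdj B x‖ := by
  let T : Eu m →L[ℝ] Eu m := s • ((B : Eu m →L[ℝ] Eu m).comp
    ((ContinuousLinearMap.adjoint (A : Eu m →L[ℝ] Eu m)).comp (B'.symm : Eu m →L[ℝ] Eu m)))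
  have hT : ∀ y, T y = s • B (ContinuousLinearMap.adjoint (A : Eu m →L[ℝ] Eu m) (B'.symm y)) :=
    fun y => rfl
  have hTn : ∀ y, ‖T y‖ = ‖y‖ := by
    intro y
    rw [hT, norm_smul, Real.norm_of_nonneg hs.le, ← h, ContinuousLinearEquiv.apply_symm_apply]
  let U : Eu m →ₗᵢ[ℝ] Eu m := ⟨(T : Eu m →ₗ[ℝ] Eu m), hTn⟩
  let V : Eu m ≃ₗᵢ[ℝ] Eu m := U.toLinearIsometryEquiv rfl
  have hV : ∀ y, V y = T y := fun y => rfl
  have key : s • invAdj B' (A x) = V.symm (invAdj B x) := by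
    refine ext_inner_left ℝ fun y => ?_
    have h1 : ⟪y, V.symm (invAdj B x)⟫ = ⟪V y, invAdj B x⟫ := by
      rw [← V.inner_map_map y (V.symm (invAdj B x)), V.apply_symm_apply]
    rw [h1, hV, hT, inner_smul_right, inner_smul_left, inner_invAdj, inner_invAdj,
      ContinuousLinearEquiv.symm_apply_apply, ContinuousLinearMap.adjoint_inner_left]
    simp
  have h2 := congrArg norm key
  rw [norm_smul, Real.norm_of_nonneg hs.le, V.symm.norm_map] at h2
  rw [← h2, ← mul_assoc, inv_mul_cancel₀ hs.ne', one_mul]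

/-- (c) The canonical conformal structure. -/
theorem exists_conf (hm : 0 < m) : ∃ S : (Eu m → ℝ) → (Eu m ≃L[ℝ] Eu m),
    ∀ ρ ρ' : Eu m → ℝ, Pos2 m ρ → Pos2 m ρ' → ∀ A : Eu m ≃L[ℝ] Eu m,
      (∀ u, ρ' (A u) = |(A : Eu m →L[ℝ] Eu m).det| ^ 2 * ρ u) →
      ∀ s : ℝ, 0 < s → s ^ m * |(A : Eu m →L[ℝ] Eu m).det| = 1 →
      ∀ x, ‖S ρ' (A x)‖ = s⁻¹ * ‖S ρ x‖ := by
  classical
  have hB : ∀ ρ : Eu m → ℝ, ∃ B : Eu m ≃L[ℝ] Eu m, Pos2 m ρ → ∀ a b, momf ρ a b = ⟪B a, B b⟫ := by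
    intro ρ
    by_cases h : Pos2 m ρ
    · obtain ⟨B, hB⟩ := exists_factor (mom h hm) (fun a b => momf_symm ρ a b)
        (fun a ha => momf_pos h hm ha)
      exact ⟨B, fun _ a b => hB a b⟩
    · exact ⟨ContinuousLinearEquiv.refl ℝ _, fun h' => absurd h' h⟩
  choose B hB using hB
  refine ⟨fun ρ => invAdj (B ρ), fun ρ ρ' h h' A hA s hs hsA x => ?_⟩
  refine invAdj_sim hs (fun y => ?_) x
  have h1 := momf_equiv h' A hA hs hsA y y
  rw [hB ρ' h', hB ρ h, real_inner_self_eq_norm_sq, real_inner_self_eq_norm_sq, ← mul_pow] at h1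
  exact (sq_eq_sq₀ (norm_nonneg _) (by positivity)).1 h1

end Canon

section Inf

variable {m : ℕ}

/-- (c'), infinitesimal form: if `A t` is a differentiable curve of maps with the scaling law
`ρ (A t u) = |det (A t)|² ρ u`, `A 0 = 1`, then `A' 0` is an infinitesimal similarity. -/
theorem conf_inf_of_sim {S : Eu m ≃L[ℝ] Eu m} {A : ℝ → Eu m →L[ℝ] Eu m} {X : Eu m →L[ℝ] Eu m}
    (hA0 : A 0 = ContinuousLinearMap.id ℝ (Eu m)) (hA : HasDerivAt A X 0)
    (hsim : ∀ᶠ t in 𝓝 (0 : ℝ), ∃ k : ℝ, ∀ x, ‖S (A t x)‖ = k * ‖S x‖) :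
    ∃ l : ℝ, ∀ y z, ⟪S (X (S.symm y)), z⟫ + ⟪y, S (X (S.symm z))⟫ = 2 * l * ⟪y, z⟫ := by
  have hd : ∀ x, HasDerivAt (fun t => ‖S (A t x)‖ ^ 2) (2 * ⟪S x, S (X x)⟫) 0 := by
    intro x
    have h1 : HasDerivAt (fun t => S (A t x)) (S (X x)) 0 :=
      (S : Eu m →L[ℝ] Eu m).hasFDerivAt.comp_hasDerivAt 0
        (((ContinuousLinearMap.apply ℝ (Eu m) x).hasFDerivAt).comp_hasDerivAt 0 hA)
    have h2 := h1.norm_sq
    rw [hA0] at h2
    exact h2
  have key : ∀ x z, 2 * ⟪S x, S (X x)⟫ * ‖S z‖ ^ 2 = 2 * ⟪S z, S (X z)⟫ * ‖S x‖ ^ 2 := by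
    intro x z
    have e1 : HasDerivAt (fun t => ‖S (A t x)‖ ^ 2 * ‖S z‖ ^ 2) (2 * ⟪S x, S (X x)⟫ * ‖S z‖ ^ 2) 0 :=
      (hd x).mul_const _
    have e2 : HasDerivAt (fun t => ‖S (A t z)‖ ^ 2 * ‖S x‖ ^ 2) (2 * ⟪S z, S (X z)⟫ * ‖S x‖ ^ 2) 0 :=
      (hd z).mul_const _
    have e3 : (fun t => ‖S (A t x)‖ ^ 2 * ‖S z‖ ^ 2) =ᶠ[𝓝 0] fun t => ‖S (A t z)‖ ^ 2 * ‖S x‖ ^ 2 := by
      filter_upwards [hsim] with t ht
      obtain ⟨k, hk⟩ := ht
      rw [hk x, hk z]; ring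
    exact (e1.congr_of_eventuallyEq e3.symm).unique e2
  have quad : ∃ l : ℝ, ∀ y, ⟪y, S (X (S.symm y))⟫ = l * ‖y‖ ^ 2 := by
    rcases subsingleton_or_nontrivial (Eu m) with hE | hE
    · exact ⟨0, fun y => by rw [Subsingleton.elim y 0]; simp⟩
    · obtain ⟨w, hw⟩ := exists_ne (0 : Eu m)
      have hw2 : ‖w‖ ^ 2 ≠ 0 := pow_ne_zero 2 (norm_ne_zero_iff.2 hw)
      refine ⟨⟪w, S (X (S.symm w))⟫ / ‖w‖ ^ 2, fun y => ?_⟩
      have := key (S.symm y) (S.symm w)
      rw [S.apply_symm_apply, S.apply_symm_apply] at this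
      field_simp
      linarith
  obtain ⟨l, hl⟩ := quad
  refine ⟨l, fun y z => ?_⟩
  have h1 := hl (y + z)
  have h2 := hl y
  have h3 := hl z
  rw [norm_add_sq_real] at h1
  simp only [map_add, inner_add_left, inner_add_right] at h1
  rw [real_inner_comm z (S (X (S.symm y)))]
  linarith

/-- The canonical structure of a curve of maps in the stabiliser. -/
theorem conf_inf {S : (Eu m → ℝ) → (Eu m ≃L[ℝ] Eu m)} {ρ : Eu m → ℝ}
    (hS : ∀ A : Eu m ≃L[ℝ] Eu m, (∀ u, ρ (A u) = |(A : Eu m →L[ℝ] Eu m).det| ^ 2 * ρ u) →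
      ∀ s : ℝ, 0 < s → s ^ m * |(A : Eu m →L[ℝ] Eu m).det| = 1 →
      ∀ x, ‖S ρ (A x)‖ = s⁻¹ * ‖S ρ x‖) (hm : 0 < m)
    {A : ℝ → Eu m →L[ℝ] Eu m} {X : Eu m →L[ℝ] Eu m}
    (hA0 : A 0 = ContinuousLinearMap.id ℝ (Eu m)) (hA : HasDerivAt A X 0)
    (hρ : ∀ᶠ t in 𝓝 (0 : ℝ), ∀ u, ρ (A t u) = |(A t).det| ^ 2 * ρ u) :
    ∃ l : ℝ, ∀ y z, ⟪S ρ (X ((S ρ).symm y)), z⟫ + ⟪y, S ρ (X ((S ρ).symm z))⟫
      = 2 * l * ⟪y, z⟫ := by
  refine conf_inf_of_sim hA0 hA ?_
  have hu : ∀ᶠ t in 𝓝 (0 : ℝ), ∃ L : Eu m ≃L[ℝ] Eu m, (L : Eu m →L[ℝ] Eu m) = A t := by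
    have h1 : IsOpen (range ((↑) : (Eu m ≃L[ℝ] Eu m) → (Eu m →L[ℝ] Eu m))) :=
      ContinuousLinearEquiv.isOpen
    have h2 : A 0 ∈ range ((↑) : (Eu m ≃L[ℝ] Eu m) → (Eu m →L[ℝ] Eu m)) :=
      ⟨ContinuousLinearEquiv.refl ℝ _, by rw [hA0]; rfl⟩
    exact hA.continuousAt.eventually (h1.mem_nhds h2)
  filter_upwards [hρ, hu] with t ht htu
  obtain ⟨L, hL⟩ := htu
  have hdet : 0 < |(L : Eu m →L[ℝ] Eu m).det| :=
    abs_pos.2 (LinearEquiv.isUnit_det' L.toLinearEquiv).ne_zero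
  refine ⟨(|(L : Eu m →L[ℝ] Eu m).det| ^ (-(1 : ℝ) / m))⁻¹, fun x => ?_⟩
  rw [← hL]
  refine hS L (fun u => ?_) _ (Real.rpow_pos_of_pos hdet _) ?_ x
  · rw [hL]; rw [← hL] at ht; rw [← hL]; exact ht u
  · have hm' : (m : ℝ) ≠ 0 := by positivity
    rw [← Real.rpow_natCast (|(L : Eu m →L[ℝ] Eu m).det| ^ (-(1 : ℝ) / m)) m,
      ← Real.rpow_mul hdet.le, div_mul_cancel₀ _ hm', Real.rpow_neg_one, inv_mul_cancel₀ hdet.ne']

/-- the quadratic tensor `P` gives a function with the required properties -/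
theorem pos2_of_det (P : Eu m →L[ℝ] Eu m →L[ℝ] (Eu m →L[ℝ] Eu m))
    (hP : ∀ u, u ≠ 0 → ∀ a, a ≠ 0 → P u u a ≠ 0) : Pos2 m (fun u => |(P u u).det|) := by
  refine ⟨?_, fun s u => ?_, fun u hu => ?_⟩
  · have h1 : Continuous fun u => P u u := by fun_prop
    exact (ContinuousLinearMap.continuous_det.comp h1).abs
  · have e : P (s • u) (s • u) = (s * s) • P u u := by
      simp [smul_smul]
    have e2 : ((s * s) • P u u).det = (s * s) ^ m * (P u u).det := by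
      have := LinearMap.det_smul (s * s) ((P u u : Eu m →L[ℝ] Eu m) : Eu m →ₗ[ℝ] Eu m)
      rw [finrank_euclideanSpace_fin] at this
      exact this
    simp only [e, e2, abs_mul, abs_pow]
    ring
  · rw [abs_pos]
    intro h0
    obtain ⟨v, hv, hv0⟩ := LinearMap.bot_lt_ker_of_det_eq_zero h0 |> fun h =>
      (Submodule.ne_bot_iff _).1 h.ne'
    exact hP u hu v hv0 hv

/-- the determinant of the adjoint -/
theorem det_adj (A : Eu m →L[ℝ] Eu m) : (ContinuousLinearMap.adjoint A).det = A.det := by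
  let v := EuclideanSpace.basisFun (Fin m) ℝ
  have h1 : ((ContinuousLinearMap.adjoint A : Eu m →L[ℝ] Eu m) : Eu m →ₗ[ℝ] Eu m)
      = LinearMap.adjoint (A : Eu m →ₗ[ℝ] Eu m) := rfl
  rw [ContinuousLinearMap.det, ContinuousLinearMap.det, h1, ← LinearMap.det_toMatrix v.toBasis,
    LinearMap.toMatrix_adjoint, Matrix.det_conjTranspose, LinearMap.det_toMatrix, star_trivial]

/-- equivariance of `|det P(u,u)|` -/
theorem det_equiv {P P' : Eu m →L[ℝ] Eu m →L[ℝ] (Eu m →L[ℝ] Eu m)} {A : Eu m →L[ℝ] Eu m}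
    (h : ∀ u, P' (A u) (A u) = A.comp ((P u u).comp (ContinuousLinearMap.adjoint A))) (u : Eu m) :
    |(P' (A u) (A u)).det| = |A.det| ^ 2 * |(P u u).det| := by
  have e : (A.comp ((P u u).comp (ContinuousLinearMap.adjoint A))).det
      = A.det * ((P u u).det * (ContinuousLinearMap.adjoint A).det) := by
    change LinearMap.det ((A : Eu m →ₗ[ℝ] Eu m) ∘ₗ ((P u u : Eu m →ₗ[ℝ] Eu m) ∘ₗ
      ((ContinuousLinearMap.adjoint A : Eu m →L[ℝ] Eu m) : Eu m →ₗ[ℝ] Eu m))) = _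
    rw [LinearMap.det_comp, LinearMap.det_comp]
  rw [h, e, det_adj, abs_mul, abs_mul]
  ring

end Inf

end Vale.Agent.P207.H799
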